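import Mathlib
import Crest.Prelude.Def_OrderedMatrix
import Crest.Agent.H4.S66Exist

set_option autoImplicit false
open Crest Crest.CombinatoricsR

namespace Crest.Agent.S0066

open Crest.Agent.H4.S66 Crest.CombinatoricsR.OrderedMatrix

/-- the host matrix -/
def hostA (h : ℕ) (r c : Fin ((386 * h + 2) * 2 ^ h)) : Bool := val h (cls h r) (cls h c)

/-- the set of triples killed by a modified cell -/
def killed (h : ℕ) (r c : ℕ) : Finset (Fin (2 ^ h) × Fin (2 ^ h) × Fin (2 ^ h)) :=
  Finset.univ.filter fun t =>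
    (isSp h r ∧ ¬ isSp h c ∧ pos h r = t.1 ∧ pos h c = t.2.2) ∨
    (¬ isSp h r ∧ isSp h c ∧ pos h r = t.2.1 ∧ pos h c = t.1) ∨
    (¬ isSp h r ∧ ¬ isSp h c ∧ pos h r = t.2.1 ∧ pos h c = t.2.2)

lemma killed_card (h r c : ℕ) : (killed h r c).card ≤ 2 ^ h := by
  by_cases h1 : isSp h r
  · by_cases h2 : isSp h c
    · have : killed h r c = ∅ := by
        unfold killed
        apply Finset.filter_eq_empty_iff.2
        intro t _
        simp [h1, h2]
      rw [this]
      simp
    · calc (killed h r c).card ≤ (Finset.univ : Finset (Fin (2 ^ h))).card := by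
            apply Finset.card_le_card_of_injOn (fun t => t.2.1) (fun _ _ => Finset.mem_coe.2 (Finset.mem_univ _))
            intro t ht t' ht' he
            simp only [killed, h1, h2, Finset.coe_filter, Finset.mem_univ, true_and, not_true,
              not_false_eq_true, false_and, or_false, Set.mem_setOf_eq] at ht ht'
            have e1 : t.1 = t'.1 := Fin.ext (by rw [← ht.1, ← ht'.1])
            have e2 : t.2.2 = t'.2.2 := Fin.ext (by rw [← ht.2, ← ht'.2])
            exact Prod.ext e1 (Prod.ext he e2)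
        _ = 2 ^ h := by simp
  · by_cases h2 : isSp h c
    · calc (killed h r c).card ≤ (Finset.univ : Finset (Fin (2 ^ h))).card := by
            apply Finset.card_le_card_of_injOn (fun t => t.2.2) (fun _ _ => Finset.mem_coe.2 (Finset.mem_univ _))
            intro t ht t' ht' he
            simp only [killed, h1, h2, Finset.coe_filter, Finset.mem_univ, true_and, not_true,
              not_false_eq_true, false_and, or_false, false_or, Set.mem_setOf_eq] at ht ht'
            have e1 : t.1 = t'.1 := Fin.ext (by rw [← ht.2, ← ht'.2])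
            have e2 : t.2.1 = t'.2.1 := Fin.ext (by rw [← ht.1, ← ht'.1])
            exact Prod.ext e1 (Prod.ext e2 he)
        _ = 2 ^ h := by simp
    · calc (killed h r c).card ≤ (Finset.univ : Finset (Fin (2 ^ h))).card := by
            apply Finset.card_le_card_of_injOn (fun t => t.1) (fun _ _ => Finset.mem_coe.2 (Finset.mem_univ _))
            intro t ht t' ht' he
            simp only [killed, h1, h2, Finset.coe_filter, Finset.mem_univ, true_and, not_true,
              not_false_eq_true, false_and, or_false, false_or, Set.mem_setOf_eq] at ht ht'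
            have e1 : t.2.1 = t'.2.1 := Fin.ext (by rw [← ht.1, ← ht'.1])
            have e2 : t.2.2 = t'.2.2 := Fin.ext (by rw [← ht.2, ← ht'.2])
            exact Prod.ext he (Prod.ext e1 e2)
        _ = 2 ^ h := by simp

lemma far {h : ℕ} (hh : 1 ≤ h)
    (B : Fin ((386 * h + 2) * 2 ^ h) → Fin ((386 * h + 2) * 2 ^ h) → Bool)
    (hB : orderedCopyCount H66 B = 0) :
    (2 ^ h) ^ 2 ≤ (Finset.univ.filter (fun rc : Fin ((386 * h + 2) * 2 ^ h) × Fin ((386 * h + 2) * 2 ^ h) =>
                hostA h rc.1 rc.2 ≠ B rc.1 rc.2)).card := by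
  by_contra hcon
  push Not at hcon
  set D := Finset.univ.filter (fun rc : Fin ((386 * h + 2) * 2 ^ h) × Fin ((386 * h + 2) * 2 ^ h) =>
                hostA h rc.1 rc.2 ≠ B rc.1 rc.2) with hD
  have hcard : (D.biUnion fun d => killed h d.1 d.2).card <
      (Finset.univ : Finset (Fin (2 ^ h) × Fin (2 ^ h) × Fin (2 ^ h))).card := by
    have hpos : 0 < 2 ^ h := by positivity
    calc (D.biUnion fun d => killed h d.1 d.2).card
        ≤ D.card * 2 ^ h := Finset.card_biUnion_le_card_mul _ _ _ (fun d _ => killed_card h _ _)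
      _ < (2 ^ h) ^ 2 * 2 ^ h := Nat.mul_lt_mul_of_pos_right hcon hpos
      _ = _ := by simp; ring
  obtain ⟨⟨x, y', y⟩, -, ht⟩ := Finset.exists_mem_notMem_of_card_lt_card hcard
  have good : ∀ r c : ℕ, ∀ (hr : r < (386 * h + 2) * 2 ^ h) (hc : c < (386 * h + 2) * 2 ^ h),
      (x, y', y) ∈ killed h r c → ext B r c = val h (cls h r) (cls h c) := by
    intro r c hr hc hk
    unfold ext
    rw [dif_pos ⟨hr, hc⟩]
    by_contra hne
    apply ht
    rw [Finset.mem_biUnion]
    exact ⟨(⟨r, hr⟩, ⟨c, hc⟩), by rw [hD, Finset.mem_filter]; exact ⟨Finset.mem_univ _, fun he => hne he.symm⟩, hk⟩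
  have hsr : ∀ s, s < 2 * h + 1 → sr h s x < (386 * h + 2) * 2 ^ h := by
    intro s hs
    have h2 := sr_lt (h := h) hs x.2
    rw [mul_aux] at h2
    rw [← total_eq hh]
    have : (z0 h + 2 * h + 2) * 2 ^ h ≤ (z0 h + 2 * h + 4) * 2 ^ h := Nat.mul_le_mul_right _ (by omega)
    omega
  have hfl : ∀ k, FLk h k → ∀ w : Fin (2 ^ h), fl h k w < (386 * h + 2) * 2 ^ h := by
    intro k hk w
    rw [← total_eq hh]
    exact fl_lt (by unfold FLk at hk; omega) w.2
  refine exists_copy hh B x.2 y.2 y'.2 ?_ ?_ ?_ hB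
  · intro s hs k hk
    apply good _ _ (hsr s hs) (hfl k hk y)
    unfold killed
    rw [Finset.mem_filter]
    exact ⟨Finset.mem_univ _, Or.inl ⟨isSp_sr hs x.2, notSp_fl hk y.2, pos_sr hs x.2, pos_fl hk y.2⟩⟩
  · intro k hk s hs
    apply good _ _ (hfl k hk y') (hsr s hs)
    unfold killed
    rw [Finset.mem_filter]
    exact ⟨Finset.mem_univ _, Or.inr (Or.inl ⟨notSp_fl hk y'.2, isSp_sr hs x.2, pos_fl hk y'.2, pos_sr hs x.2⟩)⟩
  · intro k hk k' hk'
    apply good _ _ (hfl k hk y') (hfl k' hk' y)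
    unfold killed
    rw [Finset.mem_filter]
    exact ⟨Finset.mem_univ _, Or.inr (Or.inr ⟨notSp_fl hk y'.2, notSp_fl hk' y.2, pos_fl hk y'.2, pos_fl hk' y.2⟩)⟩

lemma Hc_zero : ∀ a : Fin 12, ∃ b : Fin 12, Hc a b = false := by decide

/-- line classes of the core part of a copy -/
def coreLine (h : ℕ) {n : ℕ} (r : Fin 66 → Fin n) (a : ℕ) : Cls :=
  if ha : a < 12 then cls h (r ⟨54 + a, by omega⟩) else Cls.pad

lemma core_of_copy {h : ℕ} (r c : Fin 66 → Fin ((386 * h + 2) * 2 ^ h))
    (hr : StrictMono r) (hc : StrictMono c)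
    (hv : ∀ i j, hostA h (r i) (c j) = H66 i j) : Core h (coreLine h r) (coreLine h c) := by
  have hv' : ∀ a b, a < 12 → b < 12 → val h (coreLine h r a) (coreLine h c b) = Hc a b := by
    intro a b ha hb
    have := hv ⟨54 + a, by omega⟩ ⟨54 + b, by omega⟩
    unfold hostA H66 at this
    simp only at this
    rw [if_neg (by omega)] at this
    unfold coreLine
    rw [dif_pos ha, dif_pos hb, this]
    congr 1 <;> omega
  refine ⟨?_, ?_, ?_, ?_, ?_, ?_, hv'⟩
  · intro a ha; unfold coreLine; rw [dif_pos ha]; exact cls_wf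
  · intro a ha; unfold coreLine; rw [dif_pos ha]; exact cls_wf
  · intro a ha he
    obtain ⟨b, hb⟩ := Hc_zero ⟨a, ha⟩
    have := hv' a b ha b.2
    rw [he] at this
    simp only at hb
    rw [hb] at this
    simp [val] at this
  · intro a ha he
    obtain ⟨b, hb⟩ := Hc_zero ⟨a, ha⟩
    have := hv' b a b.2 ha
    rw [he, val_comm, Hc_comm] at this
    simp only at hb
    rw [hb] at this
    simp [val] at this
  · intro a b hab hb
    unfold coreLine
    rw [dif_pos hb, dif_pos (lt_of_le_of_lt hab hb)]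
    apply cls_ord
    exact Fin.le_def.1 (hr.monotone (Fin.le_def.2 (by simp; omega)))
  · intro a b hab hb
    unfold coreLine
    rw [dif_pos hb, dif_pos (lt_of_le_of_lt hab hb)]
    apply cls_ord
    exact Fin.le_def.1 (hc.monotone (Fin.le_def.2 (by simp; omega)))

lemma seed_of_copy {h : ℕ} (hh : 1 ≤ h) (r c : Fin 66 → Fin ((386 * h + 2) * 2 ^ h))
    (hr : StrictMono r) (hc : StrictMono c)
    (hv : ∀ i j, hostA h (r i) (c j) = H66 i j) :
    ∃ x : Fin (2 ^ h), (r 64 : ℕ) = (z0 h + 1) * 2 ^ h + ((x : ℕ) * (2 * h + 1) + h) ∧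
      (c 64 : ℕ) = (z0 h + 1) * 2 ^ h + ((x : ℕ) * (2 * h + 1) + h) := by
  obtain ⟨x, hx, h1, h2⟩ := (core_of_copy r c hr hc hv).main hh
  refine ⟨⟨x, hx⟩, ?_, ?_⟩
  · unfold coreLine at h1
    rw [dif_pos (by norm_num)] at h1
    exact cls_sp_inv h1
  · unfold coreLine at h2
    rw [dif_pos (by norm_num)] at h2
    exact cls_sp_inv h2

lemma few {h : ℕ} (hh : 1 ≤ h) :
    orderedCopyCount H66 (hostA h) ≤ 2 ^ h * ((386 * h + 2) * 2 ^ h) ^ 130 := by
  classical
  set n := (386 * h + 2) * 2 ^ h with hn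
  have key : ∀ rc : {rc : (Fin 66 → Fin n) × (Fin 66 → Fin n) //
      StrictMono rc.1 ∧ StrictMono rc.2 ∧ ∀ i j : Fin 66, hostA h (rc.1 i) (rc.2 j) = H66 i j},
      ∃ x : Fin (2 ^ h), (rc.1.1 64 : ℕ) = (z0 h + 1) * 2 ^ h + ((x : ℕ) * (2 * h + 1) + h) ∧
      (rc.1.2 64 : ℕ) = (z0 h + 1) * 2 ^ h + ((x : ℕ) * (2 * h + 1) + h) :=
    fun rc => seed_of_copy hh rc.1.1 rc.1.2 rc.2.1 rc.2.2.1 rc.2.2.2
  choose g hg using key
  have hinj : Function.Injective (fun rc : {rc : (Fin 66 → Fin n) × (Fin 66 → Fin n) //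
      StrictMono rc.1 ∧ StrictMono rc.2 ∧ ∀ i j : Fin 66, hostA h (rc.1 i) (rc.2 j) = H66 i j} =>
      ((g rc, (fun k : Fin 65 => rc.1.1 ((64 : Fin 66).succAbove k)),
        (fun k : Fin 65 => rc.1.2 ((64 : Fin 66).succAbove k))) :
        Fin (2 ^ h) × (Fin 65 → Fin n) × (Fin 65 → Fin n))) := by
    intro rc rc' he
    simp only [Prod.mk.injEq] at he
    obtain ⟨e1, e2, e3⟩ := he
    apply Subtype.ext
    apply Prod.ext
    · funext i
      by_cases hi : i = 64
      · subst hi
        apply Fin.ext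
        rw [(hg rc).1, (hg rc').1, e1]
      · obtain ⟨k, rfl⟩ := Fin.exists_succAbove_eq hi
        exact congrFun e2 k
    · funext i
      by_cases hi : i = 64
      · subst hi
        apply Fin.ext
        rw [(hg rc).2, (hg rc').2, e1]
      · obtain ⟨k, rfl⟩ := Fin.exists_succAbove_eq hi
        exact congrFun e3 k
  have hle := Fintype.card_le_of_injective _ hinj
  unfold orderedCopyCount
  refine hle.trans (le_of_eq ?_)
  simp only [Fintype.card_prod, Fintype.card_fin, Fintype.card_fun]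
  rw [← pow_add]

/-- There is a fixed 66 × 66 binary pattern H such that for every h ≥ 1, with n = (386h + 2) · 2^h and ε = (386h + 2)⁻², some n × n binary matrix A is ε-far from free of ordered copies of H (every n × n binary matrix without an ordered copy of H differs from A in at least ε · n² cells) while the number of ordered copies of H in A is at most ε · 2^(-h) · n^132. An ordered copy picks 66 rows and 66 columns in increasing order on which A coincides with H, zeros included. -/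
theorem result :
    ∃ H : Fin 66 → Fin 66 → Bool, ∀ h : ℕ, 1 ≤ h →
      ∃ A : Fin ((386 * h + 2) * 2 ^ h) → Fin ((386 * h + 2) * 2 ^ h) → Bool,
        (∀ B : Fin ((386 * h + 2) * 2 ^ h) → Fin ((386 * h + 2) * 2 ^ h) → Bool,
          Crest.CombinatoricsR.OrderedMatrix.orderedCopyCount H B = 0 →
            ((386 * (h : ℝ) + 2) ^ 2)⁻¹ * (((386 * h + 2) * 2 ^ h : ℕ) : ℝ) ^ 2 ≤
              ((Finset.univ.filter (fun rc : Fin ((386 * h + 2) * 2 ^ h) × Fin ((386 * h + 2) * 2 ^ h) =>
                A rc.1 rc.2 ≠ B rc.1 rc.2)).card : ℝ)) ∧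
        (Crest.CombinatoricsR.OrderedMatrix.orderedCopyCount H A : ℝ) /
            (((386 * h + 2) * 2 ^ h : ℕ) : ℝ) ^ 132 ≤
          ((386 * (h : ℝ) + 2) ^ 2)⁻¹ * (2 : ℝ)⁻¹ ^ h := by
  refine ⟨H66, fun h hh => ⟨hostA h, ?_, ?_⟩⟩
  · intro B hB
    have h1 := far hh B hB
    have h2 : (((2 ^ h) ^ 2 : ℕ) : ℝ) ≤ ((Finset.univ.filter (fun rc : Fin ((386 * h + 2) * 2 ^ h) × Fin ((386 * h + 2) * 2 ^ h) =>
                hostA h rc.1 rc.2 ≠ B rc.1 rc.2)).card : ℝ) := by exact_mod_cast h1
    refine le_trans (le_of_eq ?_) h2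
    have hpos : (386 * (h : ℝ) + 2) ≠ 0 := by positivity
    push_cast
    field_simp
  · have h1 := few hh
    have h2 : (orderedCopyCount H66 (hostA h) : ℝ) ≤
        ((2 ^ h * ((386 * h + 2) * 2 ^ h) ^ 130 : ℕ) : ℝ) := by exact_mod_cast h1
    have hpos : (0 : ℝ) < 386 * (h : ℝ) + 2 := by positivity
    have hn : (0 : ℝ) < (((386 * h + 2) * 2 ^ h : ℕ) : ℝ) := by
      push_cast; positivity
    rw [div_le_iff₀ (by positivity)]
    refine h2.trans (le_of_eq ?_)
    push_cast
    have h2pos : (2 : ℝ) ^ h ≠ 0 := by positivity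
    have : ((386 * (h : ℝ) + 2) * 2 ^ h) ^ 132 = ((386 * (h : ℝ) + 2) * 2 ^ h) ^ 130 * ((386 * (h : ℝ) + 2) ^ 2 * (2 ^ h) ^ 2) := by
      rw [← mul_pow, ← pow_add]
    rw [this, inv_pow]
    field_simp

end Crest.Agent.S0066
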