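import Crest.Statements.S0110
import Crest.Agent.H1.OTMap2

set_option autoImplicit false
open MeasureTheory
open scoped ENNReal NNReal
open Crest.AnalysisR.OT
open Crest Crest.AnalysisR Crest.AnalysisR.OT

namespace Crest.Agent.S0110

/-- The exponent one third is optimal, even on the cube with three-atom targets: for d ≥ 2, ρ the uniform probability measure on the cube of points of ℝᵈ with all coordinates in [-1, 1], every α > 1/3 and every C ≥ 0, there are three-atomic probability measures μ, ν on that cube, each admitting a quadratic optimal transport map from ρ, such that for all such optimal maps Tμ, Tν some coupling π of μ, ν has C · (∫ ‖y - z‖² dπ)^α < ∫ ‖Tμ - Tν‖² dρ. Hence ‖Tμ - Tν‖_{L²(ρ)} > √C · W₂(μ, ν)^α. -/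
theorem result
    (d : ℕ) (hd : 2 ≤ d) (α : ℝ) (hα : 1 / 3 < α) (C : ℝ≥0) :
    ∃ μ ν : Measure (EuclideanSpace ℝ (Fin d)),
      IsProbabilityOn {x : EuclideanSpace ℝ (Fin d) | ∀ i, |x i| ≤ 1} μ ∧
      IsProbabilityOn {x : EuclideanSpace ℝ (Fin d) | ∀ i, |x i| ≤ 1} ν ∧
      IsThreeAtomic μ ∧ IsThreeAtomic ν ∧
      (∃ T, IsOptimalMap (uniformProbOn {x : EuclideanSpace ℝ (Fin d) | ∀ i, |x i| ≤ 1}) μ T) ∧
      (∃ T, IsOptimalMap (uniformProbOn {x : EuclideanSpace ℝ (Fin d) | ∀ i, |x i| ≤ 1}) ν T) ∧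
      ∀ Tμ Tν : EuclideanSpace ℝ (Fin d) → EuclideanSpace ℝ (Fin d),
        IsOptimalMap (uniformProbOn {x : EuclideanSpace ℝ (Fin d) | ∀ i, |x i| ≤ 1}) μ Tμ →
        IsOptimalMap (uniformProbOn {x : EuclideanSpace ℝ (Fin d) | ∀ i, |x i| ≤ 1}) ν Tν →
        ∃ π : Measure (EuclideanSpace ℝ (Fin d) × EuclideanSpace ℝ (Fin d)), IsPairCoupling μ ν π ∧
          (C : ℝ≥0∞) * quadCost π ^ α < ∫⁻ x, ‖Tμ x - Tν x‖ₑ ^ 2 ∂(uniformProbOn {x : EuclideanSpace ℝ (Fin d) | ∀ i, |x i| ≤ 1}) := by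
  obtain ⟨h, hh, hh6, hlt⟩ := Crest.Agent.H1.OTCube.exists_h α hα C
  have hh2 : 3 * h < 1 := by linarith
  have hs : 0 ≤ 1 - 4 * h - h ^ 2 := by nlinarith
  have hs' : 0 ≤ 1 - 4 * h - (-h) ^ 2 := by nlinarith
  have habs : |h| ≤ h := by rw [abs_of_pos hh]
  have habs' : |-h| ≤ h := by rw [abs_neg, abs_of_pos hh]
  let i : Fin d := ⟨0, by omega⟩
  let j : Fin d := ⟨1, by omega⟩
  have hij : i ≠ j := by
    intro hij
    have := congrArg Fin.val hij
    simp [i, j] at this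
  refine ⟨(Crest.Agent.H1.OTCube.rho d).map (Crest.Agent.H1.OTCube.T i j h h),
    (Crest.Agent.H1.OTCube.rho d).map (Crest.Agent.H1.OTCube.T i j h (-h)),
    Crest.Agent.H1.OTCube.isProb i j (habs.trans (by linarith)),
    Crest.Agent.H1.OTCube.isProb i j (habs'.trans (by linarith)),
    Crest.Agent.H1.OTCube.isThree i j hij hh hh2 habs,
    Crest.Agent.H1.OTCube.isThree i j hij hh hh2 habs',
    ⟨_, Crest.Agent.H1.OTCube.T_optimal i j hij hh hs⟩,
    ⟨_, Crest.Agent.H1.OTCube.T_optimal i j hij hh hs'⟩, ?_⟩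
  intro S S' hS hS'
  refine ⟨Crest.Agent.H1.OTCube.cpl i j h, Crest.Agent.H1.OTCube.cpl_isPair i j h, ?_⟩
  have hα0 : 0 ≤ α := by linarith
  refine lt_of_le_of_lt ?_ (lt_of_lt_of_le hlt
    (Crest.Agent.H1.OTCube.lower i j hij hh hh2 hs S S' hS hS'))
  gcongr
  exact Crest.Agent.H1.OTCube.cpl_cost i j hij hh hh2

end Crest.Agent.S0110
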