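import Crest.Statements.S0122
import Crest.Agent.R92.C1
import Crest.Agent.R92.M1
import Crest.Agent.R92.N
import Crest.Agent.R92.O1
import Crest.Agent.R92.O2
import Crest.Agent.R92.O3
import Crest.Agent.R92.O4
import Crest.Agent.R92.PF
import Crest.Agent.R92.V0
import Crest.Agent.R92.V1
import Crest.Agent.R92.U
import Crest.Agent.R92.G
import Crest.Agent.R92.B
import Crest.Agent.R92.F

set_option autoImplicit false
open Crest.AnalysisR.MassAction
open Crest Crest.AnalysisR Crest.AnalysisR.MassAction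

namespace Crest.Agent.S0122

/-- For a finite reaction network on `d ≥ 1` species that is weakly reversible, with positive rate constants and mass-action kinetics, every positive stoichiometric class `P` contains a nonempty compact convex set `K` that is forward invariant and absorbing: from every point of `P` there is a solution defined for all forward time, it is unique, it stays coordinatewise positive, and it lies in `K` from some finite time on. -/
theorem result
    (d : ℕ) (hd : 1 ≤ d) (R : Network d) (hR : IsWeaklyReversible R)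
    (k : (Fin d → ℕ) × (Fin d → ℕ) → ℝ) (hk : ∀ r ∈ R, 0 < k r)
    (c : Fin d → ℝ) (hc : ∀ i, 0 < c i) :
    ∃ K : Set (Fin d → ℝ), K ⊆ positiveClass R c ∧ K.Nonempty ∧ IsCompact K ∧ Convex ℝ K ∧
      (∀ x : ℝ → (Fin d → ℝ), IsForwardSolution (field R k) x → x 0 ∈ K →
        ∀ t : ℝ, 0 ≤ t → x t ∈ K) ∧
      (∀ x₀ ∈ positiveClass R c,
        (∃ x : ℝ → (Fin d → ℝ), IsForwardSolution (field R k) x ∧ x 0 = x₀) ∧
        (∀ x x' : ℝ → (Fin d → ℝ), IsForwardSolution (field R k) x →
          IsForwardSolution (field R k) x' → x 0 = x₀ → x' 0 = x₀ →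
          ∀ t : ℝ, 0 ≤ t → x t = x' t) ∧
        (∀ x : ℝ → (Fin d → ℝ), IsForwardSolution (field R k) x → x 0 = x₀ →
          (∀ t : ℝ, 0 ≤ t → ∀ i, 0 < x t i) ∧
          ∃ T : ℝ, 0 ≤ T ∧ ∀ t : ℝ, T ≤ t → x t ∈ K)) := by
  have hG : Crest.Agent.R92.StG :=
    Crest.Agent.R92.G (Crest.Agent.R92.C1 Crest.Agent.R92.M1) Crest.Agent.R92.PP
      Crest.Agent.R92.PF Crest.Agent.R92.PC
      (Crest.Agent.R92.L Crest.Agent.R92.PP Crest.Agent.R92.PC Crest.Agent.R92.PS)
  exact Crest.Agent.R92.F (Crest.Agent.R92.B (Crest.Agent.R92.U hG) Crest.Agent.R92.N)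
    Crest.Agent.R92.O2 Crest.Agent.R92.O3 Crest.Agent.R92.O4
    (Crest.Agent.R92.V0 Crest.Agent.R92.O1 Crest.Agent.R92.O2)
    (Crest.Agent.R92.V1 Crest.Agent.R92.O1 Crest.Agent.R92.O2) d R hR k hk c hc

end Crest.Agent.S0122
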