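import Crest.Statements.S0166
import Crest.Agent.H11.L2Tree

set_option autoImplicit false
open Crest Crest.AnalysisR

namespace Crest.Agent.S0166

open Crest.Agent.H11

variable {X : Type} [NormedAddCommGroup X] [NormedSpace ℝ X] [CompleteSpace X]

theorem basic (hA : PropA X) (t : ℝ) (ht : 0 < t) (x : X) (hx : ‖x‖ = 1) (η : ℝ) (hη : 0 < η) :
    ∃ F : Set X, (RB X).IsCof F ∧ ∀ y ∈ F, ‖y‖ = 1 →
      1 ≤ ‖x + t • y‖ ∧ 1 ≤ ‖x - t • y‖ ∧
      1 + t ^ 2 / 4 - η ≤ (‖x + t • y‖ ^ 2 + ‖x - t • y‖ ^ 2) / 2 := by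
  obtain ⟨F, ⟨S, hSF, hcl, hfd⟩, hF⟩ := hA x η t hη ht
  have hx0 : ‖x‖ ≠ 0 := by rw [hx]; norm_num
  obtain ⟨φ, hφ1, hφ2⟩ := exists_dual_vector ℝ x hx0
  rw [hx] at hφ2
  have hφ2' : φ x = 1 := by simpa using hφ2
  -- intersection of F and ker φ
  have : IsClosed (S : Set X) := by rw [hSF]; exact hcl
  have : FiniteDimensional ℝ (X ⧸ S) := hfd
  let T : X →L[ℝ] (X ⧸ S) × ℝ := S.mkQL.prod φ
  refine ⟨{y | T y = 0}, isCof_ker T, fun y hy hy1 => ?_⟩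
  have hy' : S.mkQL y = 0 ∧ φ y = 0 := by
    have : T y = 0 := hy
    have h1 : (S.mkQL y, φ y) = (0, 0) := this
    exact ⟨(Prod.ext_iff.mp h1).1, (Prod.ext_iff.mp h1).2⟩
  have hyF : y ∈ F := by
    rw [← hSF]
    exact (Submodule.Quotient.mk_eq_zero S).mp hy'.1
  have htyF : t • y ∈ F := by
    rw [← hSF] at hyF ⊢
    exact S.smul_mem _ hyF
  have htn : ‖t • y‖ = t := by rw [norm_smul, hy1, mul_one, Real.norm_eq_abs, abs_of_pos ht]
  have h := hF (t • y) htyF htn.le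
  rw [htn, hx] at h
  refine ⟨?_, ?_, by linarith⟩
  · have h1 := φ.le_opNorm (x + t • y)
    rw [map_add, map_smul, hy'.2, hφ2', hφ1] at h1
    simpa using h1
  · have h1 := φ.le_opNorm (x - t • y)
    rw [map_sub, map_smul, hy'.2, hφ2', hφ1] at h1
    simpa using h1

theorem max_mod (hA : PropA X) (t : ℝ) (ht : 0 < t) (x : X) (hx : ‖x‖ = 1) (η : ℝ) (hη : 0 < η) :
    ∃ F : Set X, (RB X).IsCof F ∧ ∀ y ∈ F, ‖y‖ = 1 →
      (Real.sqrt (1 + t ^ 2 / 4) - 1) - η ≤ max ‖x + t • y‖ ‖x - t • y‖ - 1 := by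
  obtain ⟨F, hF, h⟩ := basic hA t ht x hx η hη
  refine ⟨F, hF, fun y hy hy1 => ?_⟩
  obtain ⟨h1, h2, h3⟩ := h y hy hy1
  set q := Real.sqrt (1 + t ^ 2 / 4) with hq
  have hqsq : q ^ 2 = 1 + t ^ 2 / 4 := Real.sq_sqrt (by positivity)
  have hq1 : 1 ≤ q := by
    rw [hq]; exact Real.one_le_sqrt.mpr (by nlinarith [sq_nonneg t])
  set M := max ‖x + t • y‖ ‖x - t • y‖ with hM
  have hM1 : 1 ≤ M := h1.trans (le_max_left _ _)
  have hMsq : q ^ 2 - η ≤ M ^ 2 := by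
    have e1 : ‖x + t • y‖ ^ 2 ≤ M ^ 2 := by gcongr; exact le_max_left _ _
    have e2 : ‖x - t • y‖ ^ 2 ≤ M ^ 2 := by gcongr; exact le_max_right _ _
    linarith
  by_contra hcon
  push Not at hcon
  have h4 : M < q - η := by linarith
  nlinarith

theorem avg_mod1 (hA : PropA X) (t : ℝ) (ht : 0 < t) (x : X) (hx : ‖x‖ = 1) (η : ℝ) (hη : 0 < η) :
    ∃ F : Set X, (RB X).IsCof F ∧ ∀ y ∈ F, ‖y‖ = 1 →
      (Real.sqrt (1 + t ^ 2 / 12) - 1) - η ≤ (‖x + t • y‖ + ‖x - t • y‖) / 2 - 1 := by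
  obtain ⟨F, hF, h⟩ := basic hA t ht x hx η hη
  refine ⟨F, hF, fun y hy hy1 => ?_⟩
  obtain ⟨h1, h2, h3⟩ := h y hy hy1
  set q := Real.sqrt (1 + t ^ 2 / 12) with hq
  have hqsq : q ^ 2 = 1 + t ^ 2 / 12 := Real.sq_sqrt (by positivity)
  have hq1 : 1 ≤ q := by
    rw [hq]; exact Real.one_le_sqrt.mpr (by nlinarith [sq_nonneg t])
  set M := (‖x + t • y‖ + ‖x - t • y‖) / 2 with hM
  have hM1 : 1 ≤ M := by rw [hM]; linarith
  have hMsq : q ^ 2 - η ≤ M ^ 2 := by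
    have e : 1 ≤ ‖x + t • y‖ * ‖x - t • y‖ := one_le_mul_of_one_le_of_one_le h1 h2
    rw [hM, hqsq]
    nlinarith [sq_nonneg t]
  by_contra hcon
  push Not at hcon
  have h4 : M < q - η := by linarith
  nlinarith

theorem avg_mod2 (hA : PropA X) (t : ℝ) (ht : 0 < t) (x : X) (hx : ‖x‖ = 1) (η : ℝ) (hη : 0 < η) :
    ∃ F : Set X, (RB X).IsCof F ∧ ∀ y ∈ F, ‖y‖ = 1 →
      ((Real.sqrt (1 + t ^ 2 / 4) - 1) / 2) - η ≤ (‖x + t • y‖ + ‖x - t • y‖) / 2 - 1 := by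
  obtain ⟨F, hF, h⟩ := basic hA t ht x hx η hη
  refine ⟨F, hF, fun y hy hy1 => ?_⟩
  obtain ⟨h1, h2, h3⟩ := h y hy hy1
  set q := Real.sqrt (1 + t ^ 2 / 4) with hq
  have hqsq : q ^ 2 = 1 + t ^ 2 / 4 := Real.sq_sqrt (by positivity)
  have hq1 : 1 ≤ q := by
    rw [hq]; exact Real.one_le_sqrt.mpr (by nlinarith [sq_nonneg t])
  set M := max ‖x + t • y‖ ‖x - t • y‖ with hM
  have hM1 : 1 ≤ M := h1.trans (le_max_left _ _)
  have hMsq : q ^ 2 - η ≤ M ^ 2 := by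
    have e1 : ‖x + t • y‖ ^ 2 ≤ M ^ 2 := by gcongr; exact le_max_left _ _
    have e2 : ‖x - t • y‖ ^ 2 ≤ M ^ 2 := by gcongr; exact le_max_right _ _
    linarith
  have hMq : q - η ≤ M := by
    by_contra hcon
    push Not at hcon
    nlinarith
  have hsum : M + 1 ≤ ‖x + t • y‖ + ‖x - t • y‖ := by
    rcases max_cases ‖x + t • y‖ ‖x - t • y‖ with ⟨h4, _⟩ | ⟨h4, _⟩ <;> rw [hM, h4] <;> linarith
  linarith

/-- There is a real Banach space (RealBanach record) that is separable, infinite-dimensional and reflexive, whose given norm has at every t > 0 averaged midpoint asymptotic modulus at least √(1 + t²/12) - 1 and at least (√(1 + t²/4) - 1)/2 and maximum-based midpoint modulus at least √(1 + t²/4) - 1, on which no equivalent norm is asymptotically uniformly convex, and in which for every k every map of the depth-k countably branching diamond graph of distortion at most D has 1 + k/4 ≤ D². -/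
theorem result :
    ∃ E : Crest.AnalysisR.RealBanach, E.IsSeparableInfiniteDim ∧ E.IsReflexive ∧
      (∀ t : ℝ, 0 < t → E.MidpointModulusGE E.norm t (Real.sqrt (1 + t ^ 2 / 12) - 1) ∧
        E.MidpointModulusGE E.norm t ((Real.sqrt (1 + t ^ 2 / 4) - 1) / 2) ∧
        E.MaxMidpointModulusGE E.norm t (Real.sqrt (1 + t ^ 2 / 4) - 1)) ∧
      (∀ N : E.X → ℝ, E.IsEquivNorm N → ¬ E.IsAUC N) ∧
      ∀ (k : ℕ) (f : Crest.AnalysisR.DiamondVertex k → E.X) (D : ℝ),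
        E.HasDistortionLE k f D → 1 + (k : ℝ) / 4 ≤ D ^ 2 := by
  have hauc : ∀ N : ES → ℝ, (RB ES).IsEquivNorm N → ¬ (RB ES).IsAUC N :=
    fun N hN => not_auc_of_reach one_pos reach_ES N hN
  have hsep : TopologicalSpace.SeparableSpace ES := separable_sum
  refine ⟨RB ES, ⟨hsep, not_finiteDimensional_of_not_auc hauc⟩,
    refl_sum (E := fun N : ℕ => ↥(EN N)) refl_EN, fun t ht => ⟨?_, ?_, ?_⟩, hauc, ?_⟩
  · exact avg_mod1 propA_ES t ht
  · exact avg_mod2 propA_ES t ht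
  · exact max_mod propA_ES t ht
  · exact distortion_bound propA_ES

end Crest.Agent.S0166
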