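import Crest.Statements.S0167
import Crest.Agent.H11.MeasL1b
import Crest.Agent.H11.Daugavet

set_option autoImplicit false
open Crest Crest.AnalysisR

namespace Crest.Agent.S0167

open Crest.Agent.H11 Crest.AnalysisR.L1Subspace MeasureTheory Filter Topology

variable {Ω : Type} [MeasurableSpace Ω] {P : Measure Ω} [IsProbabilityMeasure P]

theorem lower_mid (E : Submodule ℝ (Lp ℝ 1 P)) [CompleteSpace E]
    (htb : UnitBallTotallyBoundedInMeasure P E) (t : ℝ) (ht : 0 < t) (x : E) (hx : ‖x‖ = 1)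
    (η : ℝ) (hη : 0 < η) :
    ∃ F : Set E, (RB E).IsCof F ∧ ∀ y ∈ F, ‖y‖ = 1 →
      max (t / 2) (t - 1) - η ≤ (‖x + t • y‖ + ‖x - t • y‖) / 2 - 1 := by
  by_contra hcon
  push Not at hcon
  obtain ⟨F, hF, hmain⟩ := l1_main E htb
  choose y hyF hy1 hy2 using fun n => hcon (F n) (hF n)
  obtain ⟨φ, Y, hY, hlim⟩ := hmain y hyF hy1
  have h1 := hlim (x : Lp ℝ 1 P) t
  have h2 := hlim (x : Lp ℝ 1 P) (-t)
  have h3 := ((h1.add h2).div_const 2).sub_const 1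
  have h4 := le_of_tendsto h3 (Eventually.of_forall fun K => by
    have h5 := (hy2 (φ K)).le
    have e1 : ‖x + t • y (φ K)‖ = ‖(x : Lp ℝ 1 P) + t • (y (φ K) : Lp ℝ 1 P)‖ := rfl
    have e2 : ‖x - t • y (φ K)‖ = ‖(x : Lp ℝ 1 P) + (-t) • (y (φ K) : Lp ℝ 1 P)‖ := by
      rw [neg_smul, ← sub_eq_add_neg]; rfl
    rw [e1, e2] at h5
    exact h5)
  rw [abs_neg, abs_of_pos ht] at h4
  have hx' : ‖(x : Lp ℝ 1 P)‖ = 1 := hx
  have g1 : 2 * ‖(x : Lp ℝ 1 P)‖ ≤ ‖(x : Lp ℝ 1 P) + t • Y‖ + ‖(x : Lp ℝ 1 P) + (-t) • Y‖ := by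
    have : (2:ℝ) • (x : Lp ℝ 1 P) = ((x : Lp ℝ 1 P) + t • Y) + ((x : Lp ℝ 1 P) + (-t) • Y) := by
      rw [neg_smul, two_smul]; abel
    calc 2 * ‖(x : Lp ℝ 1 P)‖ = ‖(2:ℝ) • (x : Lp ℝ 1 P)‖ := by rw [norm_smul]; simp
      _ ≤ _ := by rw [this]; exact norm_add_le _ _
  have g2 : 2 * (t * ‖Y‖) ≤ ‖(x : Lp ℝ 1 P) + t • Y‖ + ‖(x : Lp ℝ 1 P) + (-t) • Y‖ := by
    have : (2 * t) • Y = ((x : Lp ℝ 1 P) + t • Y) - ((x : Lp ℝ 1 P) + (-t) • Y) := by
      rw [neg_smul, two_mul, add_smul]; abel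
    calc 2 * (t * ‖Y‖) = ‖(2 * t) • Y‖ := by
          rw [norm_smul, Real.norm_eq_abs, abs_of_pos (by positivity)]; ring
      _ ≤ _ := by rw [this]; exact norm_sub_le _ _
  rw [hx'] at g1
  have hYn := norm_nonneg Y
  rcases le_total (t / 2) (t - 1) with h | h
  · rw [max_eq_right h] at h4
    nlinarith
  · rw [max_eq_left h] at h4
    nlinarith

theorem lower_one (E : Submodule ℝ (Lp ℝ 1 P)) [CompleteSpace E]
    (htb : UnitBallTotallyBoundedInMeasure P E) (t : ℝ) (ht : 0 < t) (x : E) (hx : ‖x‖ = 1)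
    (η : ℝ) (hη : 0 < η) :
    ∃ F : Set E, (RB E).IsCof F ∧ ∀ y ∈ F, ‖y‖ = 1 →
      max 0 (t - 2) - η ≤ ‖x + t • y‖ - 1 := by
  by_contra hcon
  push Not at hcon
  obtain ⟨F, hF, hmain⟩ := l1_main E htb
  choose y hyF hy1 hy2 using fun n => hcon (F n) (hF n)
  obtain ⟨φ, Y, hY, hlim⟩ := hmain y hyF hy1
  have h1 := hlim (x : Lp ℝ 1 P) t
  have h3 := h1.sub_const 1
  have h4 := le_of_tendsto h3 (Eventually.of_forall fun K => (hy2 (φ K)).le)
  rw [abs_of_pos ht] at h4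
  have hx' : ‖(x : Lp ℝ 1 P)‖ = 1 := hx
  have hYn := norm_nonneg Y
  have htY : ‖t • Y‖ = t * ‖Y‖ := by rw [norm_smul, Real.norm_eq_abs, abs_of_pos ht]
  have g1 : ‖(x : Lp ℝ 1 P)‖ ≤ ‖(x : Lp ℝ 1 P) + t • Y‖ + ‖t • Y‖ := by
    have : (x : Lp ℝ 1 P) = ((x : Lp ℝ 1 P) + t • Y) - t • Y := by abel
    calc ‖(x : Lp ℝ 1 P)‖ = ‖((x : Lp ℝ 1 P) + t • Y) - t • Y‖ := by rw [← this]
      _ ≤ _ := norm_sub_le _ _
  have g2 : ‖t • Y‖ ≤ ‖(x : Lp ℝ 1 P) + t • Y‖ + ‖(x : Lp ℝ 1 P)‖ := by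
    have : t • Y = ((x : Lp ℝ 1 P) + t • Y) - (x : Lp ℝ 1 P) := by abel
    calc ‖t • Y‖ = ‖((x : Lp ℝ 1 P) + t • Y) - (x : Lp ℝ 1 P)‖ := by rw [← this]
      _ ≤ _ := norm_sub_le _ _
  rw [hx', htY] at g1 g2
  rcases le_total 0 (t - 2) with h | h
  · rw [max_eq_right h] at h4
    nlinarith
  · rw [max_eq_left h] at h4
    nlinarith

/-- the good direction -/
theorem upper_dir (E : Submodule ℝ (Lp ℝ 1 P)) [CompleteSpace E] (hD : HasDaugavetProperty E)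
    (t : ℝ) (ht : 0 < t) (x : E) (hx : ‖x‖ = 1) (F : Set E) (hF : (RB E).IsCof F)
    (η : ℝ) (hη : 0 < η) :
    ∃ y ∈ F, ‖y‖ = 1 ∧ ‖x + t • y‖ ≤ |1 - t / 2| + t / 2 + η ∧ ‖x - t • y‖ ≤ 1 + t + η := by
  set ε := min (1 / 2) (η / (2 * t)) with hε
  have hεpos : 0 < ε := lt_min (by norm_num) (by positivity)
  have hε1 : ε ≤ 1 / 2 := min_le_left _ _
  have hε2 : t * (2 * ε) ≤ η := by
    have : ε ≤ η / (2 * t) := min_le_right _ _
    calc t * (2 * ε) ≤ t * (2 * (η / (2 * t))) := by gcongr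
      _ = η := by field_simp
  obtain ⟨z, hz1, hz2, w, hwF, hw⟩ := daug_cof hD x hx F hF ε hεpos
  have hw1 : ‖w‖ ≤ 2 + ε := by
    have : w = (z - x) - (z - x - w) := by abel
    rw [this]
    have h1 : ‖z - x‖ ≤ 2 := (norm_sub_le _ _).trans (by linarith)
    exact (norm_sub_le _ _).trans (by linarith)
  have hw2 : 2 - 2 * ε ≤ ‖w‖ := by
    have : z - x = w + (z - x - w) := by abel
    have h1 : ‖z - x‖ ≤ ‖w‖ + ‖z - x - w‖ := by
      calc ‖z - x‖ = ‖w + (z - x - w)‖ := by rw [← this]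
        _ ≤ _ := norm_add_le _ _
    linarith
  have hwpos : 0 < ‖w‖ := by linarith
  set y := ‖w‖⁻¹ • w with hy
  have hyn : ‖y‖ = 1 := by rw [hy, norm_smul, norm_inv, norm_norm, inv_mul_cancel₀ hwpos.ne']
  have hyF : y ∈ F := by
    obtain ⟨S, hS, -, -⟩ := hF
    rw [← hS] at hwF ⊢
    exact S.smul_mem _ hwF
  set d := y - (1 / 2 : ℝ) • (z - x) with hd
  have hdn : ‖d‖ ≤ 2 * ε := by
    have h1 : d = (‖w‖⁻¹ - 1 / 2) • w - (1 / 2 : ℝ) • (z - x - w) := by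
      rw [hd, hy, sub_smul, smul_sub (1 / 2 : ℝ) (z - x) w]; abel
    have h2 : ‖(‖w‖⁻¹ - 1 / 2) • w‖ ≤ ε := by
      rw [norm_smul, Real.norm_eq_abs]
      have h3 : |‖w‖⁻¹ - 1 / 2| * ‖w‖ = |1 - ‖w‖ / 2| := by
        calc |‖w‖⁻¹ - 1 / 2| * ‖w‖ = |‖w‖⁻¹ - 1 / 2| * |‖w‖| := by rw [abs_norm]
          _ = |(‖w‖⁻¹ - 1 / 2) * ‖w‖| := (abs_mul _ _).symm
          _ = |1 - ‖w‖ / 2| := by congr 1; field_simp
      rw [h3, abs_le]; constructor <;> linarith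
    have h4 : ‖(1 / 2 : ℝ) • (z - x - w)‖ ≤ ε := by
      rw [norm_smul, Real.norm_eq_abs, abs_of_pos (by norm_num : (0:ℝ) < 1 / 2)]
      linarith
    rw [h1]
    exact (norm_sub_le _ _).trans (by linarith)
  have htd : ‖t • d‖ ≤ η := by
    rw [norm_smul, Real.norm_eq_abs, abs_of_pos ht]
    exact (mul_le_mul_of_nonneg_left hdn ht.le).trans hε2
  have htz : ‖(t / 2) • z‖ ≤ t / 2 := by
    rw [norm_smul, Real.norm_eq_abs, abs_of_pos (by positivity)]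
    exact mul_le_of_le_one_right (by positivity) hz1
  refine ⟨y, hyF, hyn, ?_, ?_⟩
  · have h1 : x + t • y = (1 - t / 2) • x + (t / 2) • z + t • d := by
      rw [hd]; module
    rw [h1]
    refine (norm_add_le _ _).trans ?_
    have h2 : ‖(1 - t / 2) • x + (t / 2) • z‖ ≤ |1 - t / 2| + t / 2 := by
      refine (norm_add_le _ _).trans ?_
      rw [norm_smul, hx, mul_one, Real.norm_eq_abs]
      linarith
    linarith
  · have h1 : x - t • y = (1 + t / 2) • x - (t / 2) • z - t • d := by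
      rw [hd]; module
    rw [h1]
    refine (norm_sub_le _ _).trans ?_
    have h2 : ‖(1 + t / 2) • x - (t / 2) • z‖ ≤ 1 + t := by
      refine (norm_sub_le _ _).trans ?_
      rw [norm_smul, hx, mul_one, Real.norm_eq_abs, abs_of_pos (by positivity)]
      linarith
    linarith

theorem reach (E : Submodule ℝ (Lp ℝ 1 P)) [CompleteSpace E] (hD : HasDaugavetProperty E)
    (e : E) (he : ‖e‖ = 1) (n : ℕ) : ∃ z : E, Reach E 1 1 n z := by
  refine reach_of_closed {z : E | ‖z‖ = 1} ⟨e, he⟩ (fun z hz => le_of_eq hz) ?_ n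
  intro z hz F hF ε hε
  have hz' : ‖z‖ = 1 := hz
  set ε' := min (1 / 2) (ε / 2) with hε'
  have hε'pos : 0 < ε' := lt_min (by norm_num) (by positivity)
  have h1 : ε' ≤ 1 / 2 := min_le_left _ _
  have h2 : ε' ≤ ε / 2 := min_le_right _ _
  obtain ⟨u, hu1, hu2, w, hwF, hw⟩ := daug_cof hD z hz F hF ε' hε'pos
  have hun : 1 - ε' ≤ ‖u‖ := by
    have : ‖u - z‖ ≤ ‖u‖ + ‖z‖ := norm_sub_le _ _
    linarith
  have hupos : 0 < ‖u‖ := by linarith
  have hdiff : ‖‖u‖⁻¹ • u - u‖ ≤ ε' := by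
    have h3 : ‖u‖⁻¹ • u - u = (‖u‖⁻¹ - 1) • u := by rw [sub_smul, one_smul]
    rw [h3, norm_smul, Real.norm_eq_abs]
    have h4 : |‖u‖⁻¹ - 1| * ‖u‖ = |1 - ‖u‖| := by
      calc |‖u‖⁻¹ - 1| * ‖u‖ = |‖u‖⁻¹ - 1| * |‖u‖| := by rw [abs_norm]
        _ = |(‖u‖⁻¹ - 1) * ‖u‖| := (abs_mul _ _).symm
        _ = |1 - ‖u‖| := by congr 1; field_simp
    rw [h4, abs_le]; constructor <;> linarith
  refine ⟨‖u‖⁻¹ • u, ?_, w, hwF, ?_, ?_⟩
  · change ‖‖u‖⁻¹ • u‖ = 1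
    rw [norm_smul, norm_inv, norm_norm, inv_mul_cancel₀ hupos.ne']
  · have : ‖u‖⁻¹ • u - z - w = (‖u‖⁻¹ • u - u) + (u - z - w) := by abel
    rw [this]
    exact (norm_add_le _ _).trans_lt (by linarith)
  · have h5 : u - z = (‖u‖⁻¹ • u - z) - (‖u‖⁻¹ • u - u) := by abel
    have h6 : ‖u - z‖ ≤ ‖‖u‖⁻¹ • u - z‖ + ‖‖u‖⁻¹ • u - u‖ := by
      calc ‖u - z‖ = ‖(‖u‖⁻¹ • u - z) - (‖u‖⁻¹ • u - u)‖ := by rw [← h5]
        _ ≤ _ := norm_sub_le _ _
    linarith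

/-- Let E be an infinite-dimensional closed subspace of the real L¹ of a probability space whose closed unit ball is totally bounded for convergence in measure and whose norm has the Daugavet property. Then at every unit x ∈ E and every t > 0 the averaged midpoint quantity sup_F inf_y ((‖x+ty‖+‖x-ty‖)/2 - 1) equals max(t/2, t-1) and the one-sided one sup_F inf_y (‖x+ty‖ - 1) equals max(0, t-2), as matching lower and upper bounds, and E admits no equivalent asymptotically uniformly convex norm. -/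
theorem result (Ω : Type) [MeasurableSpace Ω] (P : MeasureTheory.Measure Ω) [MeasureTheory.IsProbabilityMeasure P]
    (E : Submodule ℝ (MeasureTheory.Lp ℝ 1 P)) (hcl : IsClosed (E : Set (MeasureTheory.Lp ℝ 1 P)))
    (hinf : ¬ FiniteDimensional ℝ E)
    (htb : Crest.AnalysisR.L1Subspace.UnitBallTotallyBoundedInMeasure P E)
    (hD : Crest.AnalysisR.L1Subspace.HasDaugavetProperty E) :
    (∀ t : ℝ, 0 < t →
      (Crest.AnalysisR.L1Subspace.toRealBanach P E hcl).MidpointModulusGE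
          (Crest.AnalysisR.L1Subspace.toRealBanach P E hcl).norm t (max (t / 2) (t - 1)) ∧
        (Crest.AnalysisR.L1Subspace.toRealBanach P E hcl).MidpointModulusLE
          (Crest.AnalysisR.L1Subspace.toRealBanach P E hcl).norm t (max (t / 2) (t - 1)) ∧
        (Crest.AnalysisR.L1Subspace.toRealBanach P E hcl).OneSidedModulusGE
          (Crest.AnalysisR.L1Subspace.toRealBanach P E hcl).norm t (max 0 (t - 2)) ∧
        (Crest.AnalysisR.L1Subspace.toRealBanach P E hcl).OneSidedModulusLE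
          (Crest.AnalysisR.L1Subspace.toRealBanach P E hcl).norm t (max 0 (t - 2))) ∧
      ∀ N : E → ℝ, (Crest.AnalysisR.L1Subspace.toRealBanach P E hcl).IsEquivNorm N →
        ¬ (Crest.AnalysisR.L1Subspace.toRealBanach P E hcl).IsAUC N := by
  have hcomp : CompleteSpace E := hcl.completeSpace_coe
  obtain ⟨e, he⟩ : ∃ e : E, ‖e‖ = 1 := by
    have : Nontrivial E := by
      by_contra hcon
      rw [not_nontrivial_iff_subsingleton] at hcon
      exact hinf inferInstance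
    obtain ⟨v, hv⟩ := exists_ne (0 : E)
    refine ⟨‖v‖⁻¹ • v, ?_⟩
    rw [norm_smul, norm_inv, norm_norm, inv_mul_cancel₀ (norm_pos_iff.mpr hv).ne']
  refine ⟨fun t ht => ⟨lower_mid E htb t ht, ?_, lower_one E htb t ht, ?_⟩, ?_⟩
  · have h : ∀ x : E, ‖x‖ = 1 → ∀ F : Set E, (RB E).IsCof F → ∀ η : ℝ, 0 < η →
        ∃ y ∈ F, ‖y‖ = 1 ∧ (‖x + t • y‖ + ‖x - t • y‖) / 2 - 1 ≤ max (t / 2) (t - 1) + η := by
      intro x hx F hF η hη
      obtain ⟨y, hyF, hy1, h1, h2⟩ := upper_dir E hD t ht x hx F hF η hη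
      refine ⟨y, hyF, hy1, ?_⟩
      rcases abs_cases (1 - t / 2) with ⟨h3, h4⟩ | ⟨h3, h4⟩
      · have := le_max_left (t / 2) (t - 1)
        rw [h3] at h1; linarith
      · have := le_max_right (t / 2) (t - 1)
        rw [h3] at h1; linarith
    exact h
  · have h : ∀ x : E, ‖x‖ = 1 → ∀ F : Set E, (RB E).IsCof F → ∀ η : ℝ, 0 < η →
        ∃ y ∈ F, ‖y‖ = 1 ∧ ‖x + t • y‖ - 1 ≤ max 0 (t - 2) + η := by
      intro x hx F hF η hη
      obtain ⟨y, hyF, hy1, h1, h2⟩ := upper_dir E hD t ht x hx F hF η hη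
      refine ⟨y, hyF, hy1, ?_⟩
      rcases abs_cases (1 - t / 2) with ⟨h3, h4⟩ | ⟨h3, h4⟩
      · have := le_max_left 0 (t - 2)
        rw [h3] at h1; linarith
      · have := le_max_right 0 (t - 2)
        rw [h3] at h1; linarith
    exact h
  · have hauc : ∀ N : E → ℝ, (RB E).IsEquivNorm N → ¬ (RB E).IsAUC N :=
      fun N hN => not_auc_of_reach one_pos (reach E hD e he) N hN
    exact hauc

end Crest.Agent.S0167
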