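import Crest.Statements.S0168
import Crest.Agent.H11.TreePot2

set_option autoImplicit false
open Crest Crest.AnalysisR

namespace Crest.Agent.S0168

open Crest.Agent.H11 Crest.AnalysisR.TreePotential

theorem separable (m : PotentialModel) : TopologicalSpace.SeparableSpace (modelSpace m) := by
  have h1 : TopologicalSpace.IsSeparable (Set.range (coordVector m)) :=
    (Set.countable_range _).isSeparable
  have h2 : TopologicalSpace.IsSeparable
      (Submodule.span ℝ (Set.range (coordVector m)) : Set (Amb m)) := h1.span
  have h3 : TopologicalSpace.IsSeparable (modelSpace m : Set (Amb m)) := h2.closure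
  exact h3.separableSpace

theorem isCof_coord (m : PotentialModel) (S : Finset (List ℕ)) :
    (RB (modelSpace m)).IsCof {y | ∀ s ∈ S, coordFun m s (y : Amb m) = 0} := by
  have h := isCof_ker (X := modelSpace m)
    (ContinuousLinearMap.pi (fun s : S => (coordFun m s).comp (modelSpace m).subtypeL))
  convert h using 1
  ext y
  simp only [Set.mem_ofPred_eq]
  constructor
  · intro h; funext s; exact h s s.2
  · intro h s hs; exact congrFun h ⟨s, hs⟩

theorem midpoint (m : PotentialModel) (t : ℝ) (ht : 0 < t) (ht1 : t < 1) (x : modelSpace m)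
    (hx : ‖x‖ = 1) (η : ℝ) (hη : 0 < η) :
    ∃ F : Set (modelSpace m), (RB (modelSpace m)).IsCof F ∧ ∀ y ∈ F, ‖y‖ = 1 →
      (Real.sqrt (1 + t ^ 2 / 4) - 1) - η ≤ (‖x + t • y‖ + ‖x - t • y‖) / 2 - 1 := by
  obtain ⟨S, hS⟩ := asym_model m x.1 x.2 η hη
  refine ⟨_, isCof_coord m S, fun y hy hy1 => ?_⟩
  set r := Real.sqrt (1 + t ^ 2 / 4) with hr
  have hrpos : 0 < r := Real.sqrt_pos.mpr (by positivity)
  have hrsq : r ^ 2 = 1 + t ^ 2 / 4 := Real.sq_sqrt (by positivity)
  have hr1 : 1 ≤ r := by
    rw [hr]; exact Real.one_le_sqrt.mpr (by nlinarith [sq_nonneg t])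
  have h := hS (t • y.1) ((modelSpace m).smul_mem t y.2) (fun s hs => by
    rw [map_smul, hy s hs, smul_zero]) (1 / r) (t / 2 / r) (by positivity) (by positivity)
    (by
      rw [div_pow, div_pow, hrsq]
      have : (0:ℝ) < 1 + t ^ 2 / 4 := by positivity
      field_simp
      ring_nf
      rfl)
    (by
      rw [mul_div_assoc', div_le_one hrpos]
      linarith)
  have hn : ‖t • y.1‖ = t := by
    rw [norm_smul, Real.norm_eq_abs, abs_of_pos ht]
    have : ‖y.1‖ = 1 := hy1
    rw [this, mul_one]
  have hx1 : ‖x.1‖ = 1 := hx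
  rw [hn, hx1] at h
  have e : 1 / r * 1 + t / 2 / r / 2 * t = r := by
    have : 1 / r * 1 + t / 2 / r / 2 * t = (1 + t ^ 2 / 4) / r := by field_simp; ring
    rw [this, ← hrsq]; field_simp
  rw [e] at h
  have h' : r - η ≤ (‖x + t • y‖ + ‖x - t • y‖) / 2 := h
  linarith

theorem reach (m : PotentialModel) (n : ℕ) : ∃ z : modelSpace m, Reach (modelSpace m) 1 1 n z := by
  refine reach_of_closed (Set.range fun s => (⟨pathVec m s, pathVec_mem m s⟩ : modelSpace m))
    ⟨_, ⟨[], rfl⟩⟩ ?_ ?_ n
  · rintro _ ⟨s, rfl⟩; exact norm_pathVec_le m s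
  · rintro _ ⟨s, rfl⟩ F hF ε hε
    obtain ⟨k, y, hy, hyε⟩ := exists_close_of_upper_two
      (fun n => (⟨coordVector m (n :: s), coordVector_mem m _⟩ : modelSpace m)) 1
      (fun A a => by
        have h1 := norm_sum_children_le m s A a
        rw [one_mul]
        refine le_trans (le_of_eq ?_) h1
        have : ((∑ n ∈ A, a n • (⟨coordVector m (n :: s), coordVector_mem m _⟩ : modelSpace m) :
          modelSpace m) : Amb m) = ∑ n ∈ A, a n • coordVector m (n :: s) := by
          simp
        rw [← this]; rfl) F hF ε hε
    refine ⟨_, ⟨k :: s, rfl⟩, y, hy, ?_, ?_⟩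
    · have : (⟨pathVec m (k :: s), pathVec_mem m _⟩ : modelSpace m) - ⟨pathVec m s, pathVec_mem m s⟩
        = ⟨coordVector m (k :: s), coordVector_mem m _⟩ := by
        apply Subtype.ext
        simp [pathVec]
      simp only [this]
      exact hyε
    · have : (⟨pathVec m (k :: s), pathVec_mem m _⟩ : modelSpace m) - ⟨pathVec m s, pathVec_mem m s⟩
        = ⟨coordVector m (k :: s), coordVector_mem m _⟩ := by
        apply Subtype.ext
        simp [pathVec]
      simp only [this]
      exact one_le_norm_coordVector m k s

/-- For each of the four bounded-potential coordinate models on the countably branching tree (rootless sibling, rooted sibling, antichain, global), the generated space, namely the closure of the span of the coordinate vectors in the supremum norm over the model's tests, is separable and infinite-dimensional, its norm has at every unit centre and every 0 < t < 1 averaged midpoint asymptotic quantity at least √(1 + t²/4) - 1, and no equivalent norm on it is asymptotically uniformly convex. -/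
theorem result
    (m : Crest.AnalysisR.TreePotential.PotentialModel) :
    (Crest.AnalysisR.TreePotential.modelBanach m).IsSeparableInfiniteDim ∧
      (∀ t : ℝ, 0 < t → t < 1 →
        (Crest.AnalysisR.TreePotential.modelBanach m).MidpointModulusGE
          (Crest.AnalysisR.TreePotential.modelBanach m).norm t (Real.sqrt (1 + t ^ 2 / 4) - 1)) ∧
      ∀ N : (Crest.AnalysisR.TreePotential.modelBanach m).X → ℝ,
        (Crest.AnalysisR.TreePotential.modelBanach m).IsEquivNorm N →
          ¬ (Crest.AnalysisR.TreePotential.modelBanach m).IsAUC N := by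
  have hauc : ∀ N : modelSpace m → ℝ, (RB (modelSpace m)).IsEquivNorm N →
      ¬ (RB (modelSpace m)).IsAUC N := fun N hN => not_auc_of_reach one_pos (reach m) N hN
  refine ⟨⟨separable m, not_finiteDimensional_of_not_auc (X := modelSpace m) hauc⟩, ?_, hauc⟩
  intro t ht ht1
  exact midpoint m t ht ht1

end Crest.Agent.S0168
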