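import Crest.Statements.S0169
import Crest.Agent.H11.TreeProd

set_option autoImplicit false
open MeasureTheory ProbabilityTheory
open Crest Crest.AnalysisR

namespace Crest.Agent.S0169

open Crest.Agent.H11 Crest.AnalysisR.TreeProduct

/-- Let ν be a Borel probability law on ℝ carried by (0,∞), not a point mass, with mean 1 and finite second moment, and W an independent family of real random variables on a probability space indexed by the vertices of the countably branching tree (finite lists of naturals; root [], parent of a :: v is v), each non-root one with law ν. Then the closed linear span in L¹ of the path products ∏_{root ≺ u ≼ v} W_u is infinite-dimensional and has no equivalent asymptotically uniformly convex norm. -/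
theorem result (ν : Measure ℝ) [IsProbabilityMeasure ν] (hpos : ν (Set.Ioi 0) = 1)
    (hnc : ∀ c : ℝ, ν ≠ Measure.dirac c) (hmean : ∫ x, x ∂ν = 1)
    (hm2 : Integrable (fun x : ℝ => x ^ 2) ν)
    (Ω : Type) [MeasurableSpace Ω] (μ : Measure Ω) [IsProbabilityMeasure μ]
    (W : List ℕ → Ω → ℝ) (hW : Crest.AnalysisR.TreeProduct.IsRealization ν μ W) :
    ¬ FiniteDimensional ℝ (Crest.AnalysisR.TreeProduct.productSpan μ W) ∧
      ∀ N : (Crest.AnalysisR.TreeProduct.spanBanach μ W).X → ℝ,
        (Crest.AnalysisR.TreeProduct.spanBanach μ W).IsEquivNorm N →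
          ¬ (Crest.AnalysisR.TreeProduct.spanBanach μ W).IsAUC N := by
  have hcomp : CompleteSpace (productSpan μ W) :=
    (Submodule.isClosed_topologicalClosure _ : IsClosed (productSpan μ W : Set (Lp ℝ 1 μ))).completeSpace_coe
  set δ := ∫ x, |x - 1| ∂ν with hδ
  have hδpos : 0 < δ := increment_pos hnc hm2
  have reach : ∀ n, ∃ z : productSpan μ W, Reach (productSpan μ W) 1 δ n z := by
    refine reach_of_closed
      (Set.range fun s => (⟨pp hW hm2 s, pp_mem hW hm2 s⟩ : productSpan μ W)) ⟨_, ⟨[], rfl⟩⟩ ?_ ?_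
    · rintro _ ⟨s, rfl⟩
      exact (norm_pp hW hpos hmean hm2 s).le
    · rintro _ ⟨s, rfl⟩ F hF ε hε
      have hdiff : ∀ k : ℕ, (⟨pp hW hm2 (k :: s), pp_mem hW hm2 _⟩ : productSpan μ W) -
          ⟨pp hW hm2 s, pp_mem hW hm2 s⟩ = ⟨pp hW hm2 (k :: s) - pp hW hm2 s,
            Submodule.sub_mem _ (pp_mem hW hm2 _) (pp_mem hW hm2 s)⟩ := fun k => rfl
      obtain ⟨k, y, hy, hyε⟩ := exists_close_of_upper_two
        (fun n => (⟨pp hW hm2 (n :: s) - pp hW hm2 s,
            Submodule.sub_mem _ (pp_mem hW hm2 _) (pp_mem hW hm2 s)⟩ : productSpan μ W))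
        (Real.sqrt ((∫ ω, pathProduct W s ω ^ 2 ∂μ) * (∫ x, (x - 1) ^ 2 ∂ν)))
        (fun A a => by
          refine le_trans (le_of_eq ?_) (norm_sum_increments_le hW hmean hm2 s A a)
          have : ((∑ n ∈ A, a n • (⟨pp hW hm2 (n :: s) - pp hW hm2 s,
            Submodule.sub_mem _ (pp_mem hW hm2 _) (pp_mem hW hm2 s)⟩ : productSpan μ W) :
            productSpan μ W) : Lp ℝ 1 μ) = ∑ n ∈ A, a n • (pp hW hm2 (n :: s) - pp hW hm2 s) := by
            simp
          rw [← this]; rfl) F hF ε hε
      refine ⟨_, ⟨k :: s, rfl⟩, y, hy, ?_, ?_⟩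
      · simp only [hdiff]; exact hyε
      · simp only [hdiff]
        exact (norm_pp_sub hW hpos hmean hm2 k s).ge
  have hauc : ∀ N : productSpan μ W → ℝ, (RB (productSpan μ W)).IsEquivNorm N →
      ¬ (RB (productSpan μ W)).IsAUC N := fun N hN => not_auc_of_reach hδpos reach N hN
  exact ⟨not_finiteDimensional_of_not_auc (X := productSpan μ W) hauc, hauc⟩

end Crest.Agent.S0169
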