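import Crest.Statements.S0175
import Crest.Agent.H1.MM15

set_option autoImplicit false
open MeasureTheory
open scoped ENNReal ContDiff
open Crest.AnalysisR.OT
open Crest Crest.AnalysisR Crest.AnalysisR.OT

namespace Crest.Agent.S0175

/-- For every d ≥ 2 and s > 0 there is a smooth, compactly supported, nonnegative ρ on ℝᵈ with integral 1 and smooth square root such that, for μ = ρ dx and the cost summing ‖xᵢ - xⱼ‖^(-s) over the three pairs of a triple: some coupling with all three marginals μ has finite cost, minimal among all such couplings; every pair of Borel maps T₂, T₃ pushing μ to itself gives the plan x ↦ (x, T₂ x, T₃ x) strictly larger cost; and such pairs have costs arbitrarily close to that minimum. -/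
theorem result
    (d : ℕ) (hd : 2 ≤ d) (s : ℝ) (hs : 0 < s) :
    ∃ ρ : EuclideanSpace ℝ (Fin d) → ℝ, (∀ x, 0 ≤ ρ x) ∧ ContDiff ℝ ∞ ρ ∧ HasCompactSupport ρ ∧
      ContDiff ℝ ∞ (fun x => Real.sqrt (ρ x)) ∧ ∫ x, ρ x = 1 ∧
      ∃ π₀ : Measure (EuclideanSpace ℝ (Fin d) × EuclideanSpace ℝ (Fin d) × EuclideanSpace ℝ (Fin d)),
        IsCoupling₃ (measOfDensity ρ) π₀ ∧ ∫⁻ p, tripleCost s p ∂π₀ < ⊤ ∧
        (∀ π : Measure (EuclideanSpace ℝ (Fin d) × EuclideanSpace ℝ (Fin d) × EuclideanSpace ℝ (Fin d)), IsCoupling₃ (measOfDensity ρ) π →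
          ∫⁻ p, tripleCost s p ∂π₀ ≤ ∫⁻ p, tripleCost s p ∂π) ∧
        (∀ T₂ T₃ : EuclideanSpace ℝ (Fin d) → EuclideanSpace ℝ (Fin d), Measurable T₂ → Measurable T₃ →
          (measOfDensity ρ).map T₂ = measOfDensity ρ → (measOfDensity ρ).map T₃ = measOfDensity ρ →
          ∫⁻ p, tripleCost s p ∂π₀ < ∫⁻ x, tripleCost s (x, T₂ x, T₃ x) ∂(measOfDensity ρ)) ∧
        (∀ ε : ℝ≥0∞, 0 < ε → ∃ T₂ T₃ : EuclideanSpace ℝ (Fin d) → EuclideanSpace ℝ (Fin d), Measurable T₂ ∧ Measurable T₃ ∧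
          (measOfDensity ρ).map T₂ = measOfDensity ρ ∧ (measOfDensity ρ).map T₃ = measOfDensity ρ ∧
          ∫⁻ x, tripleCost s (x, T₂ x, T₃ x) ∂(measOfDensity ρ) < ∫⁻ p, tripleCost s p ∂π₀ + ε) := by
  obtain ⟨η, h0, h8, hA, hB, hC⟩ := Crest.Agent.H1.MM.exists_eta hs
  have hη : Crest.Agent.H1.MM.Eta s η := ⟨h0, h8, hA, hB, hC⟩
  let i : Fin d := ⟨0, by omega⟩
  let j : Fin d := ⟨1, by omega⟩
  have hij : i ≠ j := by
    intro h
    have := congrArg Fin.val h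
    simp [i, j] at this
  obtain ⟨r, hR⟩ := Crest.Agent.H1.MM.exists_rad i hs h0
  let D := Crest.Agent.H1.MM.mkData i j hs hij hη hR
  have hmu : D.mu = measOfDensity (Crest.Agent.H1.MM.rho i j hs r) :=
    Crest.Agent.H1.MM.mu_eq i j hs hij hη hR
  refine ⟨Crest.Agent.H1.MM.rho i j hs r, Crest.Agent.H1.MM.rho_nonneg i j hs hR,
    Crest.Agent.H1.MM.rho_cd i j hs hR, Crest.Agent.H1.MM.rho_cs i j hs hR,
    Crest.Agent.H1.MM.sqrt_rho_cd i j hs hR, Crest.Agent.H1.MM.integral_rho i j hs hij hη hR, ?_⟩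
  rw [← hmu]
  refine ⟨D.pi0, D.pi0_coupling, D.pi0_cost_lt_top, fun π hπ => D.pi0_min hπ, ?_, ?_⟩
  · intro T₂ T₃ h2 h3 m2 m3
    exact D.no_monge h2 h3 m2 m3
  · intro ε hε
    refine D.approx (by omega) ?_ ε hε
    rw [hmu]
    exact withDensity_absolutelyContinuous _ _

end Crest.Agent.S0175
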