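import Crest.Statements.S0223
-- import your own Crest.Agent.* helpers here

set_option autoImplicit false
open Crest Crest.ProbabilityR

namespace Crest.Agent.S0223

open Crest.ProbabilityR.Shuffle in
theorem stepPos_inj (m : ℕ) (c : Fin m → Bool) : Function.Injective (stepPos m c) := by
  intro x y hxy
  have h := congrArg Fin.val hxy
  unfold stepPos at h
  simp only at h
  have hx := x.isLt
  have hy := y.isLt
  have hm : 0 < m := by omega
  have hmod : x.val % m = y.val % m := by
    split_ifs at h <;> omega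
  have hfin : (⟨x.val % m, Nat.mod_lt _ hm⟩ : Fin m) = ⟨y.val % m, Nat.mod_lt _ hm⟩ :=
    Fin.ext hmod
  rw [hfin, hmod] at h
  have hx2 := Nat.div_add_mod x.val m
  have hy2 := Nat.div_add_mod y.val m
  have hxd : x.val / m < 2 := Nat.div_lt_of_lt_mul (by omega)
  have hyd : y.val / m < 2 := Nat.div_lt_of_lt_mul (by omega)
  have hhalf : (m ≤ x.val) ↔ (m ≤ y.val) := by
    by_cases h1 : m ≤ x.val <;> by_cases h2 : m ≤ y.val
    · exact iff_of_true h1 h2
    · exfalso
      revert h
      cases c ⟨y.val % m, Nat.mod_lt _ hm⟩ <;> simp [h1, h2]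
    · exfalso
      revert h
      cases c ⟨y.val % m, Nat.mod_lt _ hm⟩ <;> simp [h1, h2]
    · exact iff_of_false h1 h2
  apply Fin.ext
  by_cases h1 : m ≤ x.val
  · have h2 := hhalf.1 h1
    have e1 : x.val % m = x.val - m := by
      rw [Nat.mod_eq_sub_mod h1, Nat.mod_eq_of_lt (by omega)]
    have e2 : y.val % m = y.val - m := by
      rw [Nat.mod_eq_sub_mod h2, Nat.mod_eq_of_lt (by omega)]
    omega
  · have h2 : ¬ m ≤ y.val := fun h => h1 (hhalf.2 h)
    rw [Nat.mod_eq_of_lt (by omega), Nat.mod_eq_of_lt (by omega)] at hmod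
    exact hmod

open Crest.ProbabilityR.Shuffle in
theorem iterPos_inj (m : ℕ) : ∀ (t : ℕ) (cs : Fin t → Fin m → Bool),
    Function.Injective (iterPos m t cs)
  | 0, _ => fun _ _ h => h
  | t + 1, cs => by
    intro x y h
    exact iterPos_inj m t _ (stepPos_inj m _ h)

open Crest.ProbabilityR.Shuffle in
theorem tv_lower (m t : ℕ) :
    1 - (2 : ℝ) ^ (m * t) / ((2 * m).factorial : ℝ) ≤ tvFromUniform m t := by
  classical
  let G : (Fin t → Fin m → Bool) → Equiv.Perm (Fin (2 * m)) := fun cs =>
    Equiv.ofBijective (iterPos m t cs)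
      ((Finite.injective_iff_bijective).1 (iterPos_inj m t cs))
  have hG : ∀ cs (g : Equiv.Perm (Fin (2 * m))), iterPos m t cs = ⇑g ↔ G cs = g := by
    intro cs g
    constructor
    · intro h
      apply Equiv.ext
      intro x
      exact congrFun h x
    · intro h
      rw [← h]
      rfl
  set u : ℝ := 1 / ((2 * m).factorial : ℝ) with hu
  have hu0 : 0 < u := by positivity
  have hT : (Fintype.card (Fin t → Fin m → Bool) : ℝ) = (2 : ℝ) ^ (m * t) := by
    simp [pow_mul]
  let P : Equiv.Perm (Fin (2 * m)) → ℝ := fun g =>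
    Crest.FinProb.uniformProb {cs : Fin t → Fin m → Bool | iterPos m t cs = ⇑g}
  have hP : ∀ g, P g = ((Finset.univ.filter fun cs => G cs = g).card : ℝ) / (2 : ℝ) ^ (m * t) := by
    intro g
    show Crest.FinProb.uniformProb {cs : Fin t → Fin m → Bool | iterPos m t cs = ⇑g} = _
    unfold Crest.FinProb.uniformProb
    rw [hT]
    congr 2
    apply congrArg
    ext cs
    simp only [Finset.mem_filter, Finset.mem_univ, true_and]
    exact hG cs g
  have hsumP : ∑ g, P g = 1 := by
    simp only [hP]
    rw [← Finset.sum_div]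
    have h1 : ∑ g : Equiv.Perm (Fin (2 * m)), ((Finset.univ.filter fun cs => G cs = g).card : ℝ)
        = (Fintype.card (Fin t → Fin m → Bool) : ℝ) := by
      rw [← Finset.card_univ, Finset.card_eq_sum_card_fiberwise (f := G) (t := Finset.univ)
        (by intro a _; exact Finset.mem_coe.2 (Finset.mem_univ _))]
      push_cast
      rfl
    rw [h1, hT]
    field_simp
  let A : Finset (Equiv.Perm (Fin (2 * m))) := Finset.univ.image G
  have hA : (A.card : ℝ) ≤ (2 : ℝ) ^ (m * t) := by
    rw [← hT]
    have : A.card ≤ Fintype.card (Fin t → Fin m → Bool) := by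
      rw [← Finset.card_univ]
      exact Finset.card_image_le
    exact_mod_cast this
  have hPA : ∀ g, g ∉ A → P g = 0 := by
    intro g hg
    rw [hP]
    have : (Finset.univ.filter fun cs => G cs = g) = ∅ := by
      rw [Finset.filter_eq_empty_iff]
      intro cs _ h
      apply hg
      rw [← h]
      exact Finset.mem_image_of_mem _ (Finset.mem_univ _)
    rw [this]
    simp
  have hsumA : ∑ g ∈ A, P g = 1 := by
    rw [← hsumP]
    apply Finset.sum_subset (Finset.subset_univ _)
    intro g _ hg
    exact hPA g hg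
  have hcard : (A.card : ℝ) + (Aᶜ.card : ℝ) = ((2 * m).factorial : ℝ) := by
    have h1 := Finset.card_add_card_compl A
    rw [Fintype.card_perm, Fintype.card_fin] at h1
    exact_mod_cast h1
  have hfu : ((2 * m).factorial : ℝ) * u = 1 := by
    rw [hu]
    have : ((2 * m).factorial : ℝ) ≠ 0 := by positivity
    field_simp
  have hmain : 2 - 2 * ((A.card : ℝ) * u) ≤ ∑ g, |P g - u| := by
    calc 2 - 2 * ((A.card : ℝ) * u)
        = ∑ g ∈ A, (P g - u) + ∑ g ∈ Aᶜ, (u - P g) := by
          rw [Finset.sum_sub_distrib, Finset.sum_sub_distrib, hsumA,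
            Finset.sum_eq_zero (s := Aᶜ) (f := P) (fun g hg => hPA g (Finset.mem_compl.1 hg)),
            Finset.sum_const, Finset.sum_const, nsmul_eq_mul, nsmul_eq_mul]
          have : (Aᶜ.card : ℝ) * u = 1 - (A.card : ℝ) * u := by
            rw [← hfu, ← hcard]; ring
          rw [this]; ring
      _ ≤ ∑ g ∈ A, |P g - u| + ∑ g ∈ Aᶜ, |P g - u| := by
          apply add_le_add
          · exact Finset.sum_le_sum fun g _ => le_abs_self _
          · apply Finset.sum_le_sum
            intro g _
            rw [abs_sub_comm]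
            exact le_abs_self _
      _ = ∑ g, |P g - u| := Finset.sum_add_sum_compl A _
  have hdef : tvFromUniform m t = (1 / 2) * ∑ g, |P g - u| := rfl
  rw [hdef]
  have h2 : (2 : ℝ) ^ (m * t) / ((2 * m).factorial : ℝ) = (2 : ℝ) ^ (m * t) * u := by
    rw [hu]; ring
  rw [h2]
  have h3 : (A.card : ℝ) * u ≤ (2 : ℝ) ^ (m * t) * u := mul_le_mul_of_nonneg_right hA hu0.le
  linarith

/-- For a deck of `2 * 2 ^ d` cards and every number `t` of shuffles, the total variation distance between the law of the arrangement of the deck and the uniform law on all arrangements is at least `1 - 2 ^ (2 ^ d * t) / (2 * 2 ^ d)!`. -/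
theorem result (d t : ℕ) :
    1 - (2 : ℝ) ^ (2 ^ d * t) / ((2 * 2 ^ d).factorial : ℝ)
      ≤ Crest.ProbabilityR.Shuffle.tvFromUniform (2 ^ d) t := by
  exact tv_lower (2 ^ d) t

end Crest.Agent.S0223
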