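import Crest.Statements.S0255
import Crest.Agent.FIID.SRLaw

set_option autoImplicit false
open Crest Crest.ProbabilityR

namespace Crest.Agent.S0255

open MeasureTheory Crest.Agent.FIID

attribute [local irreducible] Phi

/-- the translation behind `leftShift g` -/
def trn {Γ : Type*} [Group Γ] (g : Γ) : Γ ≃ Γ := Equiv.mulLeft g⁻¹

theorem leftShift_eq {Γ : Type*} [Group Γ] {X : Type*} (g : Γ) (a : Γ → X) :
    Crest.ProbabilityR.StronglyRayleigh.leftShift g a = a ∘ trn g := rfl

theorem winOf_inv {Γ : Type*} [Group Γ] (ν : Measure (Γ → Bool))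
    (hinv : Crest.ProbabilityR.StronglyRayleigh.IsShiftInvariant ν) (g : Γ) :
    pb' (trn g) (winOf ν) = winOf ν := by
  funext W S
  unfold pb' winOf
  congr 1
  rw [← hinv g _ (measurableSet_cyl W S)]
  congr 1
  ext ω
  simp only [cyl, Set.mem_setOf_eq, Set.mem_preimage, leftShift_eq, Finset.mem_map,
    Equiv.coe_toEmbedding, forall_exists_index, and_imp, Function.comp]
  constructor
  · intro h i hi
    rw [h (trn g i) i hi rfl]
    simp
  · rintro h i j hj rfl
    rw [h j hj]
    simp

/-- For a countable group `Γ` and a strongly Rayleigh probability law `ν` on binary configurations `Γ → Bool` that is invariant under every left shift `a ↦ (h ↦ a (g⁻¹ h))`, there is a measurable map from independent uniform labels indexed by `Γ` to configurations that commutes with every left shift and pushes the label law forward to `ν`. -/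
theorem result (Γ : Type*) [Group Γ]
    [Countable Γ] (ν : MeasureTheory.Measure (Γ → Bool)) [MeasureTheory.IsProbabilityMeasure ν]
    (hsr : Crest.ProbabilityR.StronglyRayleigh.IsStronglyRayleigh ν)
    (hinv : Crest.ProbabilityR.StronglyRayleigh.IsShiftInvariant ν) :
    ∃ Φ : (Γ → unitInterval) → (Γ → Bool), Measurable Φ ∧
      (∀ (g : Γ) (u : Γ → unitInterval),
        Φ (Crest.ProbabilityR.StronglyRayleigh.leftShift g u) =
          Crest.ProbabilityR.StronglyRayleigh.leftShift g (Φ u)) ∧
      (Crest.ProbabilityR.Labels.labelMeasure Γ).map Φ = ν := by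
  obtain ⟨f, hfm, hf⟩ := exists_split
  have hp := winOf_isSR ν hsr
  have hlab : Measurable (fun (u : Γ → unitInterval) (i : Γ) => f (u i)) := by
    rw [measurable_pi_iff]
    intro i
    exact hfm.comp (measurable_pi_apply i)
  have hΦm : Measurable (fun u : Γ → unitInterval => Phi (winOf ν) (fun i => f (u i))) := by
    exact measurable_Phi_comp (P := fun _ => winOf ν) measurable_const hlab
  refine ⟨fun u => Phi (winOf ν) (fun i => f (u i)), hΦm, ?_, ?_⟩
  · intro g u
    rw [leftShift_eq, leftShift_eq, ← Phi_map, winOf_inv ν hinv]
    rfl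
  · have hprobL : IsProbabilityMeasure (Crest.ProbabilityR.Labels.labelMeasure Γ) := by
      unfold Crest.ProbabilityR.Labels.labelMeasure
      infer_instance
    have hprob1 : IsProbabilityMeasure ((Crest.ProbabilityR.Labels.labelMeasure Γ).map
        (fun u => Phi (winOf ν) (fun i => f (u i)))) :=
      Measure.isProbabilityMeasure_map hΦm.aemeasurable
    have hQprob : IsProbabilityMeasure ((Crest.ProbabilityR.Labels.labelMeasure Γ).map
        (fun (u : Γ → unitInterval) (i : Γ) => f (u i))) :=
      Measure.isProbabilityMeasure_map hlab.aemeasurable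
    have hQ0 : (Crest.ProbabilityR.Labels.labelMeasure Γ).map
        (fun (u : Γ → unitInterval) (i : Γ) => f (u i)) =
        Measure.infinitePi (fun _ : Γ => Measure.infinitePi
          (fun _ : ℕ => (volume : Measure unitInterval))) := by
      unfold Crest.ProbabilityR.Labels.labelMeasure
      rw [Measure.infinitePi_map_pi _ (fun _ => hfm)]
      simp only [hf]
    have hQ : ((Crest.ProbabilityR.Labels.labelMeasure Γ).map
        (fun (u : Γ → unitInterval) (i : Γ) => f (u i))).map
        (fun y (i : ↥(Set.univ : Set Γ) × ℕ) => y i.1 i.2) =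
        Measure.infinitePi (fun _ : ↥(Set.univ : Set Γ) × ℕ => (volume : Measure unitInterval)) := by
      rw [hQ0]
      have h1 := Measure.infinitePi_map_curry_symm (ι := Γ) (κ := ℕ)
        (fun _ _ => (volume : Measure unitInterval))
      have h2 := Measure.map_infinitePi_infinitePi_of_inj
        (P := fun _ : Γ × ℕ => (volume : Measure unitInterval))
        (f := fun i : ↥(Set.univ : Set Γ) × ℕ => ((i.1 : Γ), i.2)) (by
          intro i i' h
          simp only [Prod.mk.injEq] at h
          exact Prod.ext (Subtype.ext h.1) h.2)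
      rw [← h1, Measure.map_map (by fun_prop) (by fun_prop)] at h2
      exact h2
    apply ext_of_occupied
    intro F
    have hmeasF : MeasurableSet {ω : Γ → Bool | ∀ e ∈ F, ω e = true} := by
      have : {ω : Γ → Bool | ∀ e ∈ F, ω e = true} = ⋂ e ∈ F, {ω : Γ → Bool | ω e = true} := by
        ext ω; simp
      rw [this]
      apply Finset.measurableSet_biInter
      intro i _
      have hmi : Measurable (fun ω : Γ → Bool => ω i) := measurable_pi_apply i
      exact hmi (measurableSet_singleton true)
    have h3 := Phi_law hp Set.univ (fun e he => absurd (Set.mem_univ e) he) _ hQ F (Set.subset_univ _)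
    have hPm : Measurable (fun y : Γ → ℕ → unitInterval => Phi (winOf ν) y) :=
      measurable_Phi_comp (P := fun _ => winOf ν) measurable_const measurable_id
    have hms : MeasurableSet {y : Γ → ℕ → unitInterval | ∀ e ∈ F, Phi (winOf ν) y e = true} :=
      hPm hmeasF
    rw [Measure.map_apply hΦm hmeasF]
    rw [Measure.map_apply hlab hms] at h3
    have h4 : (Crest.ProbabilityR.Labels.labelMeasure Γ)
        ((fun u => Phi (winOf ν) (fun i => f (u i))) ⁻¹' {ω | ∀ e ∈ F, ω e = true}) =
        ENNReal.ofReal (winOf ν F F) := h3
    rw [h4]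
    unfold winOf
    rw [ENNReal.ofReal_toReal (measure_ne_top _ _)]
    congr 1
    ext ω
    simp only [cyl, Set.mem_setOf_eq]
    constructor
    · intro h e he
      exact (h e he).mpr he
    · intro h e he
      exact ⟨fun _ => he, fun _ => h e he⟩

end Crest.Agent.S0255
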