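import Mathlib
import Crest.Prelude.Def_QuadricHamiltonian
import Crest.Agent.H18.Quadric9

set_option autoImplicit false
open Crest Crest.GeometryTopology

namespace Crest.Agent.S0316

open Crest.Agent.H18.Quadric Crest.GeometryTopology.Quadric

theorem span_smul_eq (a : ℂ) (ha : a ≠ 0) (v : E) :
    Submodule.span ℂ {a • v} = Submodule.span ℂ {v} :=
  Submodule.span_singleton_smul_eq (isUnit_iff_ne_zero.2 ha) v

theorem z0_ne (z : E) (hz : z ∈ unitCone) (v : E) (h : z = z 0 • v) : z 0 ≠ 0 := by
  intro h0
  rw [h0, zero_smul] at h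
  rw [h] at hz
  rw [cone_iff] at hz
  simp at hz

theorem fixed_eq : fixedLines theLift =
    {Submodule.span ℂ {v1}, Submodule.span ℂ {v2 (Real.sqrt 66)}, Submodule.span ℂ {v2 (-Real.sqrt 66)}} := by
  ext ℓ
  simp only [Set.mem_insert_iff, Set.mem_singleton_iff]
  constructor
  · rintro ⟨z, hz, hl, hmem⟩
    rw [hl, Submodule.mem_span_singleton] at hmem
    obtain ⟨c, hc⟩ := hmem
    have key := fixed_class z hz c hc.symm
    rcases key with h | h | h
    · left
      rw [hl]
      have h0 := z0_ne z hz _ h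
      conv_lhs => rw [h]
      exact span_smul_eq _ h0 _
    · right; left
      rw [hl]
      have h0 := z0_ne z hz _ h
      conv_lhs => rw [h]
      exact span_smul_eq _ h0 _
    · right; right
      rw [hl]
      have h0 := z0_ne z hz _ h
      conv_lhs => rw [h]
      exact span_smul_eq _ h0 _
  · have hlam : (Real.sqrt (364 / 1681)) ^ 2 = 364 / 1681 := Real.sq_sqrt (by norm_num)
    have hlam0 : ((Real.sqrt (364 / 1681) : ℝ) : ℂ) ≠ 0 := by
      have : 0 < Real.sqrt (364 / 1681) := Real.sqrt_pos.2 (by norm_num)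
      exact_mod_cast this.ne'
    have hs : (Real.sqrt 66) ^ 2 = 66 := Real.sq_sqrt (by norm_num)
    have hs' : (-Real.sqrt 66) ^ 2 = 66 := by rw [neg_sq]; exact hs
    rintro (h | h | h)
    · refine ⟨w1, w1_cone, ?_, ?_⟩
      · rw [h, w1_eq, span_smul_eq _ (by norm_num)]
      · rw [h, Submodule.mem_span_singleton]
        refine ⟨(⟨-8 / 17, 15 / 17⟩ : ℂ) * (2 / 5), ?_⟩
        show _ = Psi (1, w1)
        rw [Psi_w1, w1_eq, smul_smul]
    · refine ⟨w2 (Real.sqrt (364 / 1681)) (Real.sqrt 66), w2_cone _ _ hlam hs, ?_, ?_⟩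
      · rw [h, w2_eq, span_smul_eq _ hlam0]
      · rw [h, Submodule.mem_span_singleton]
        refine ⟨(⟨1352 / 7225 + 144 / 1445 * Real.sqrt 66, -507 / 1445 + 384 / 7225 * Real.sqrt 66⟩ : ℂ)
          * ((Real.sqrt (364 / 1681) : ℝ) : ℂ), ?_⟩
        show _ = Psi (1, _)
        rw [Psi_w2 _ _ hlam hs, w2_eq, smul_smul]
    · refine ⟨w2 (Real.sqrt (364 / 1681)) (-Real.sqrt 66), w2_cone _ _ hlam hs', ?_, ?_⟩
      · rw [h, w2_eq, span_smul_eq _ hlam0]
      · rw [h, Submodule.mem_span_singleton]
        refine ⟨(⟨1352 / 7225 + 144 / 1445 * (-Real.sqrt 66), -507 / 1445 + 384 / 7225 * (-Real.sqrt 66)⟩ : ℂ)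
          * ((Real.sqrt (364 / 1681) : ℝ) : ℂ), ?_⟩
        show _ = Psi (1, _)
        rw [Psi_w2 _ _ hlam hs', w2_eq, smul_smul]

theorem span_ne (a b : E) (ha : a 0 = 1) (hb : b 0 = 1) (h3 : a 3 ≠ b 3) :
    Submodule.span ℂ {a} ≠ Submodule.span ℂ {b} := by
  intro h
  have h1 : a ∈ Submodule.span ℂ {b} := h ▸ Submodule.mem_span_singleton_self a
  rw [Submodule.mem_span_singleton] at h1
  obtain ⟨c, hc⟩ := h1
  have h0 := congrFun hc 0
  have h4 := congrFun hc 3
  simp only [Pi.smul_apply, smul_eq_mul, ha, hb, mul_one] at h0 h4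
  rw [h0, one_mul] at h4
  exact h3 h4.symm

/-- There is a Hamiltonian diffeomorphism of the complex quadric threefold (the zero set of z₀² + ⋯ + z₄² in complex projective 4-space, with the restricted Fubini–Study form) having exactly three fixed points, at least one of them degenerate. Hamiltonian isotopies are encoded by smooth lifts to the unit isotropic cone in ℂ⁵ obeying Hamilton's equation; points of the quadric are complex lines through cone points; degenerate means the differential of the time-one map fixes a nonzero tangent vector. -/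
theorem result :
    ∃ L : Crest.GeometryTopology.Quadric.HamiltonianConeLift,
      (Crest.GeometryTopology.Quadric.fixedLines L).ncard = 3 ∧
      Crest.GeometryTopology.Quadric.HasDegenerateFixedPoint L := by
  refine ⟨theLift, ?_, degenerate⟩
  rw [Set.ncard_eq_three]
  have hpos : 0 < Real.sqrt 66 := Real.sqrt_pos.2 (by norm_num)
  have hs : (Real.sqrt 66) ^ 2 = 66 := Real.sq_sqrt (by norm_num)
  refine ⟨_, _, _, ?_, ?_, ?_, fixed_eq⟩
  · apply span_ne _ _ (by simp [v1]) (by simp [v2])
    intro h
    have := congrArg Complex.re h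
    simp [v1, v2] at this
    nlinarith
  · apply span_ne _ _ (by simp [v1]) (by simp [v2])
    intro h
    have := congrArg Complex.re h
    simp [v1, v2] at this
    nlinarith
  · apply span_ne _ _ (by simp [v2]) (by simp [v2])
    intro h
    have := congrArg Complex.re h
    simp [v2] at this
    nlinarith

end Crest.Agent.S0316
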