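import Crest.Statements.S0327
import Crest.Agent.H16.Bases

set_option autoImplicit false
open MeasureTheory
open scoped ENNReal
open Crest Crest.GeometryTopology Crest.GeometryTopology.Convex

namespace Crest.Agent.S0327

/-- Let K ⊂ ℝ³ be a regular tetrahedron (convex hull of four points with equal pairwise distances ℓ > 0); areas are Lebesgue-normalised 2-dimensional Hausdorff measure, π_v y = y − ⟪y, v⟫ v. (1) Finitely many cylinders Bᵢ + ℝ uᵢ, ‖uᵢ‖ = 1, with parallelogram bases Bᵢ = cᵢ + [0,1]aᵢ + [0,1]bᵢ in uᵢ^⊥ cover K, ∑ᵢ area(Bᵢ) being below half of area(π_v K) by a positive margin for all unit v, and ∑ᵢ area(Bᵢ)/area(π_{uᵢ} K) < 1/2. (2) The same with bounded relatively open subsets of the uᵢ^⊥ as bases. -/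
theorem result
    (w : Fin 4 → EuclideanSpace ℝ (Fin 3)) (ℓ : ℝ) (hℓ : 0 < ℓ)
    (hw : ∀ i j, i ≠ j → dist (w i) (w j) = ℓ) :
    (∃ (k : ℕ) (u c a b : Fin k → EuclideanSpace ℝ (Fin 3)),
      (∀ i, ‖u i‖ = 1) ∧
      (∀ i, inner ℝ (c i) (u i) = 0 ∧ inner ℝ (a i) (u i) = 0 ∧ inner ℝ (b i) (u i) = 0) ∧
      convexHull ℝ (Set.range w) ⊆ ⋃ i, {x : EuclideanSpace ℝ (Fin 3) |
        ∃ s ∈ Set.Icc (0 : ℝ) 1, ∃ t ∈ Set.Icc (0 : ℝ) 1, ∃ τ : ℝ, x = c i + s • a i + t • b i + τ • u i} ∧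
      (∃ δ : ℝ, 0 < δ ∧ ∀ v : EuclideanSpace ℝ (Fin 3), ‖v‖ = 1 →
        (∑ i, (μHE[2] {x : EuclideanSpace ℝ (Fin 3) |
            ∃ s ∈ Set.Icc (0 : ℝ) 1, ∃ t ∈ Set.Icc (0 : ℝ) 1, x = c i + s • a i + t • b i}).toReal) + δ ≤
          (μHE[2] ((fun y => y - inner ℝ y v • v) '' convexHull ℝ (Set.range w))).toReal / 2) ∧
      ∑ i, (μHE[2] {x : EuclideanSpace ℝ (Fin 3) |
            ∃ s ∈ Set.Icc (0 : ℝ) 1, ∃ t ∈ Set.Icc (0 : ℝ) 1, x = c i + s • a i + t • b i}).toReal /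
          (μHE[2] ((fun y => y - inner ℝ y (u i) • u i) '' convexHull ℝ (Set.range w))).toReal < 1 / 2) ∧
    (∃ (k : ℕ) (u : Fin k → EuclideanSpace ℝ (Fin 3)) (B : Fin k → Set (EuclideanSpace ℝ (Fin 3))),
      (∀ i, ‖u i‖ = 1) ∧
      (∀ i, Bornology.IsBounded (B i) ∧ ∃ O : Set (EuclideanSpace ℝ (Fin 3)), IsOpen O ∧
        B i = O ∩ {x | inner ℝ x (u i) = 0}) ∧
      convexHull ℝ (Set.range w) ⊆
        ⋃ i, {x : EuclideanSpace ℝ (Fin 3) | ∃ y ∈ B i, ∃ τ : ℝ, x = y + τ • u i} ∧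
      (∃ δ : ℝ, 0 < δ ∧ ∀ v : EuclideanSpace ℝ (Fin 3), ‖v‖ = 1 →
        (∑ i, (μHE[2] (B i)).toReal) + δ ≤
          (μHE[2] ((fun y => y - inner ℝ y v • v) '' convexHull ℝ (Set.range w))).toReal / 2) ∧
      ∑ i, (μHE[2] (B i)).toReal /
          (μHE[2] ((fun y => y - inner ℝ y (u i) • u i) '' convexHull ℝ (Set.range w))).toReal < 1 / 2) := by
  have hs : 0 < Real.sqrt 2 := Real.sqrt_pos.mpr (by norm_num)
  obtain ⟨A, hA, hcov⟩ := Crest.Agent.H16.cover_std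
  obtain ⟨m, L, hK⟩ := Crest.Agent.H16.exists_sim w ℓ hℓ hw
  have hk : ℓ / 2 ≠ 0 := by positivity
  have hcov' := hcov.sim m (ℓ / 2) hk L
  rw [← hK] at hcov'
  have hsh : ∀ v : EuclideanSpace ℝ (Fin 3), ‖v‖ = 1 → (ℓ / 2) ^ 2 * Real.sqrt 2 ≤
      (μHE[2] ((fun y => y - inner ℝ y v • v) '' convexHull ℝ (Set.range w))).toReal := by
    intro v hv
    rw [hK]
    exact Crest.Agent.H16.shadow_sim m (ℓ / 2) hk L v hv
  set S : ℝ := (ℓ / 2) ^ 2 * Real.sqrt 2 with hS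
  have hSpos : 0 < S := by rw [hS]; positivity
  have hlt : (ℓ / 2) ^ 2 * A < S * (1 / 2 - 1 / 10 ^ 7) := by
    have h1 : (ℓ / 2) ^ 2 * A ≤ (ℓ / 2) ^ 2 * (Real.sqrt 2 * (1 / 2 - 1 / 10 ^ 6)) :=
      mul_le_mul_of_nonneg_left hA (sq_nonneg _)
    have h2 : (ℓ / 2) ^ 2 * (Real.sqrt 2 * (1 / 2 - 1 / 10 ^ 6)) = S * (1 / 2 - 1 / 10 ^ 6) := by
      rw [hS]; ring
    rw [h2] at h1
    refine lt_of_le_of_lt h1 (mul_lt_mul_of_pos_left (by norm_num) hSpos)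
  -- generic final estimates
  have hfin : ∀ (k : ℕ) (u : Fin k → EuclideanSpace ℝ (Fin 3)) (B : Fin k → Set (EuclideanSpace ℝ (Fin 3))),
      (∀ i, ‖u i‖ = 1) → ∑ i, (μHE[2] (B i)).toReal ≤ S * (1 / 2 - 1 / 10 ^ 7) →
      (∃ δ : ℝ, 0 < δ ∧ ∀ v : EuclideanSpace ℝ (Fin 3), ‖v‖ = 1 →
        (∑ i, (μHE[2] (B i)).toReal) + δ ≤
          (μHE[2] ((fun y => y - inner ℝ y v • v) '' convexHull ℝ (Set.range w))).toReal / 2) ∧
      ∑ i, (μHE[2] (B i)).toReal /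
          (μHE[2] ((fun y => y - inner ℝ y (u i) • u i) '' convexHull ℝ (Set.range w))).toReal < 1 / 2 := by
    intro k u B hu hB
    refine ⟨⟨S / 10 ^ 7, by positivity, ?_⟩, ?_⟩
    · intro v hv
      have := hsh v hv
      linarith
    · have h1 : ∑ i, (μHE[2] (B i)).toReal /
          (μHE[2] ((fun y => y - inner ℝ y (u i) • u i) '' convexHull ℝ (Set.range w))).toReal ≤
          ∑ i, (μHE[2] (B i)).toReal / S := by
        apply Finset.sum_le_sum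
        intro i _
        exact div_le_div_of_nonneg_left ENNReal.toReal_nonneg hSpos (hsh (u i) (hu i))
      refine lt_of_le_of_lt h1 ?_
      rw [← Finset.sum_div, div_lt_iff₀ hSpos]
      linarith
  constructor
  · obtain ⟨k, u, c, a, b, h1, h2, h3, h4⟩ := hcov'.para _ hlt
    obtain ⟨h5, h6⟩ := hfin k u _ h1 h4
    exact ⟨k, u, c, a, b, h1, h2, h3, h5, h6⟩
  · obtain ⟨k, u, D, h1, h2, h3, h4⟩ := hcov'.open _ hlt
    obtain ⟨h5, h6⟩ := hfin k u D h1 h4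
    exact ⟨k, u, D, h1, h2, h3, h5, h6⟩

end Crest.Agent.S0327
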