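import Crest.Statements.S0328
import Crest.Agent.H1.Sweep5

set_option autoImplicit false
open MeasureTheory
open scoped ENNReal
open Crest Crest.GeometryTopology Crest.GeometryTopology.Convex

namespace Crest.Agent.S0328

open Crest.Agent.H1 Crest.Agent.H1.Sweep in
/-- Unit e; a, b, p₀ ∈ e^⊥, a, b independent; α < β; L > 0; R ≥ 0, λ both continuous on [α, β]; w(t) ∈ e^⊥, w′ = λ(t)(a + tb). S = {p₀ + ρ(a + t b) + s(e + w t) : α ≤ t ≤ β, 0 ≤ ρ ≤ R t, ‖s‖ ≤ L}; A = κ ∫_α^β R²/(2√(1 + ‖w‖²)), κ = area spanned by a, b. For η > 0 a δ > 0 makes each partition t₀ < … < t_N of [α, β] of mesh ≤ δ, tags cᵢ, admit N cylinders (axes e + w(cᵢ), nondegenerate triangle bases) covering S, total area within η of A; same for S's pieces tᵢ ≤ t ≤ tᵢ₊₁ projected along these axes. -/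
theorem result
    (e a b p₀ : EuclideanSpace ℝ (Fin 3)) (he : ‖e‖ = 1)
    (ha : inner ℝ a e = 0) (hb : inner ℝ b e = 0) (hp₀ : inner ℝ p₀ e = 0)
    (hab : LinearIndependent ℝ ![a, b]) (L : ℝ) (hL : 0 < L) (α β : ℝ) (hαβ : α < β)
    (R : ℝ → ℝ) (hR : ContinuousOn R (Set.Icc α β)) (hR0 : ∀ t ∈ Set.Icc α β, 0 ≤ R t)
    (w : ℝ → EuclideanSpace ℝ (Fin 3)) (hw : ∀ t ∈ Set.Icc α β, inner ℝ (w t) e = 0)
    (lam : ℝ → ℝ) (hlam : ContinuousOn lam (Set.Icc α β))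
    (hw' : ∀ t ∈ Set.Icc α β, HasDerivWithinAt w (lam t • (a + t • b)) (Set.Icc α β) t)
    (η : ℝ) (hη : 0 < η) :
    ∃ δ : ℝ, 0 < δ ∧ ∀ (N : ℕ) (t : Fin (N + 1) → ℝ) (c : Fin N → ℝ),
      StrictMono t → t 0 = α → t (Fin.last N) = β →
      (∀ i : Fin N, t i.succ - t i.castSucc ≤ δ) →
      (∀ i : Fin N, t i.castSucc ≤ c i ∧ c i ≤ t i.succ) →
      (∃ (p q r : Fin N → EuclideanSpace ℝ (Fin 3)),
        (∀ i, inner ℝ (p i) (e + w (c i)) = 0 ∧ inner ℝ (q i) (e + w (c i)) = 0 ∧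
          inner ℝ (r i) (e + w (c i)) = 0) ∧
        (∀ i, AffineIndependent ℝ ![p i, q i, r i]) ∧
        {x : EuclideanSpace ℝ (Fin 3) | ∃ τ ∈ Set.Icc α β, ∃ ρ ∈ Set.Icc 0 (R τ), ∃ s : ℝ, abs s ≤ L ∧
            x = p₀ + ρ • (a + τ • b) + s • (e + w τ)} ⊆
          ⋃ i, {x : EuclideanSpace ℝ (Fin 3) | ∃ y ∈ convexHull ℝ {p i, q i, r i}, ∃ σ : ℝ,
            x = y + σ • (e + w (c i))} ∧
        abs ((∑ i, (μHE[2] (convexHull ℝ ({p i, q i, r i} : Set (EuclideanSpace ℝ (Fin 3))))).toReal) -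
            Real.sqrt (‖a‖ ^ 2 * ‖b‖ ^ 2 - inner ℝ a b ^ 2) *
              ∫ τ in α..β, R τ ^ 2 / (2 * Real.sqrt (1 + ‖w τ‖ ^ 2))) ≤ η) ∧
      abs ((∑ i : Fin N, (μHE[2] ((fun y => y - (inner ℝ y (e + w (c i)) / ‖e + w (c i)‖ ^ 2) • (e + w (c i))) ''
            {x : EuclideanSpace ℝ (Fin 3) | ∃ τ ∈ Set.Icc (t i.castSucc) (t i.succ), ∃ ρ ∈ Set.Icc 0 (R τ),
              ∃ s : ℝ, abs s ≤ L ∧ x = p₀ + ρ • (a + τ • b) + s • (e + w τ)})).toReal) -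
          Real.sqrt (‖a‖ ^ 2 * ‖b‖ ^ 2 - inner ℝ a b ^ 2) *
            ∫ τ in α..β, R τ ^ 2 / (2 * Real.sqrt (1 + ‖w τ‖ ^ 2))) ≤ η := by
  obtain ⟨δ, hδ, Λ, ζ, hmain⟩ := Crest.Agent.H1.Sweep.sweep_main e a b p₀ he ha hb hp₀ hab L hL α β hαβ
    R hR hR0 w hw lam hlam hw' η hη
  refine ⟨δ, hδ, ?_⟩
  intro N t c hmono h0 hN hmesh htag
  obtain ⟨hpiece, hI, hII⟩ := hmain N t c hmono h0 hN hmesh htag
  refine ⟨⟨fun i => P1 e a b p₀ w L Λ (t i.castSucc) (t i.succ) (c i),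
    fun i => P2 e a b p₀ w R L Λ ζ (t i.castSucc) (t i.succ) (c i),
    fun i => P3 e a b p₀ w R L Λ ζ (t i.castSucc) (t i.succ) (c i), ?_, ?_, ?_, hI⟩, hII⟩
  · intro i
    have hne := axis_ne_zero he (hpiece i).hwc
    exact ⟨proj_perp hne _, proj_perp hne _, proj_perp hne _⟩
  · intro i
    apply affineIndependent_of_gramArea
    have hp := hpiece i
    rw [hp.big_gram]
    have h1 : 0 < gramArea a b := Real.sqrt_pos.mpr (gd_pos hab)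
    have h2 := one_le_sq (w (c i))
    have h3 : 0 < t i.succ - t i.castSucc := by linarith [hp.ht]
    have h4 : 0 < GG R ζ (c i) := by
      unfold GG; linarith [hp.hζ, hp.hR0 _ hp.hc]
    have : 0 < Real.sqrt (1 + ‖w (c i)‖ ^ 2) := by linarith
    positivity
  · rintro x ⟨τ, hτ, ρ, hρ, s, hs, rfl⟩
    obtain ⟨i, hi⟩ := exists_cell hαβ h0 hN hτ
    simp only [Set.mem_iUnion]
    refine ⟨i, _, (hpiece i).mem_big hi hρ hs, ?_⟩
    refine ⟨inner ℝ (p₀ + ρ • (a + τ • b) + s • (e + w τ)) (e + w (c i)) / ‖e + w (c i)‖ ^ 2, ?_⟩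
    rw [proj]
    abel

end Crest.Agent.S0328
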