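import Crest.Statements.S0329
import Crest.Agent.H1.Sheared

set_option autoImplicit false
open MeasureTheory
open scoped ENNReal
open Crest Crest.GeometryTopology Crest.GeometryTopology.Convex

namespace Crest.Agent.S0329

open Crest.Agent.H1 Crest.Agent.H1.Ruled in
/-- Let h, M > 0, D ⊂ ℝ² be compact with Lebesgue-null boundary, and V : ℝ² → ℝ² be C¹ on an open set containing D with tr DV(p) = 0 and −1/M² < det DV(p) < 0 for p ∈ D. For every ε > 0 the set of points (x, p₁ + x V₁(p), h (p₂ + x V₂(p))) ∈ ℝ³ with p ∈ D, −M ≤ x ≤ M is covered by finitely many cylinders Bᵢ + ℝ uᵢ, ‖uᵢ‖ = 1, with bases Bᵢ bounded relatively open subsets of the planes uᵢ^⊥ and ∑ᵢ area(Bᵢ) ≤ h ∫_D (1 + V₁² + h² V₂²)^(−1/2) + ε (areas: normalised 2-dimensional Hausdorff measure). -/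
theorem result
    (h M : ℝ) (hh : 0 < h) (hM : 0 < M) (D : Set (EuclideanSpace ℝ (Fin 2))) (hD : IsCompact D)
    (hbd : volume (frontier D) = 0)
    (V : EuclideanSpace ℝ (Fin 2) → EuclideanSpace ℝ (Fin 2)) (U : Set (EuclideanSpace ℝ (Fin 2)))
    (hU : IsOpen U) (hDU : D ⊆ U) (hV : ContDiffOn ℝ 1 V U)
    (htr : ∀ p ∈ D, LinearMap.trace ℝ _ (fderiv ℝ V p).toLinearMap = 0)
    (hdet : ∀ p ∈ D, -(M ^ 2)⁻¹ < LinearMap.det (fderiv ℝ V p).toLinearMap ∧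
      LinearMap.det (fderiv ℝ V p).toLinearMap < 0)
    (ε : ℝ) (hε : 0 < ε) :
    ∃ (k : ℕ) (u : Fin k → EuclideanSpace ℝ (Fin 3)) (B : Fin k → Set (EuclideanSpace ℝ (Fin 3))),
      (∀ i, ‖u i‖ = 1) ∧
      (∀ i, Bornology.IsBounded (B i) ∧ ∃ O : Set (EuclideanSpace ℝ (Fin 3)), IsOpen O ∧
        B i = O ∩ {x | inner ℝ x (u i) = 0}) ∧
      {z : EuclideanSpace ℝ (Fin 3) | ∃ p ∈ D, ∃ x : ℝ, abs x ≤ M ∧
          z = !₂[x, p 0 + x * V p 0, h * (p 1 + x * V p 1)]} ⊆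
        ⋃ i, {z : EuclideanSpace ℝ (Fin 3) | ∃ y ∈ B i, ∃ τ : ℝ, z = y + τ • u i} ∧
      ∑ i, (μHE[2] (B i)).toReal ≤
        h * (∫ p in D, 1 / Real.sqrt (1 + (V p 0) ^ 2 + h ^ 2 * (V p 1) ^ 2)) + ε := by
  set I : ℝ := ∫ p in D, 1 / Real.sqrt (1 + (V p 0) ^ 2 + h ^ 2 * (V p 1) ^ 2) with hI
  have hI0 : 0 ≤ I := integral_nonneg fun p => by
    have := J_nonneg h (V p)
    exact this
  have hε' : 0 < ε / (2 * h) := by positivity
  obtain ⟨k, c, a, b, g, h1, h2, h3⟩ :=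
    (Crest.Agent.H1.Ruled.main D hD V U hU hDU hV M h hM hh htr
      (fun p hp => ⟨(hdet p hp).1, (hdet p hp).2.le⟩) (ε / (2 * h)) hε').toFin
  change ∑ i, ‖a i‖ ^ 2 * J h (g i) ≤ I + ε / (2 * h) at h3
  set K : ℝ := h * (I + ε / (2 * h)) with hK
  have hK0 : 0 ≤ K := by positivity
  set τ : ℝ := min (1 / 2) (ε / (12 * (K + 1))) with hτ
  have hτ0 : 0 < τ := lt_min (by norm_num) (by positivity)
  have hτ1 : τ ≤ 1 / 2 := min_le_left _ _
  have hτ2 : 6 * τ * K ≤ ε / 2 := by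
    have : τ ≤ ε / (12 * (K + 1)) := min_le_right _ _
    rw [le_div_iff₀ (by positivity)] at this
    nlinarith
  have hbase := fun i => exists_base hh (c i) (a i) (b i) (g i) (h1 i).1 (h1 i).2.1 (h1 i).2.2 hτ0
  choose B hB1 hB2 hB3 hB4 using hbase
  refine ⟨k, fun i => uvec h (g i), B, fun i => norm_uvec h (g i), fun i => ⟨hB1 i, hB2 i⟩, ?_, ?_⟩
  · rintro z ⟨p, hp, x, hx, rfl⟩
    have hmem : ((x, p + x • V p) : ℝ × EuclideanSpace ℝ (Fin 2)) ∈
        {z : ℝ × EuclideanSpace ℝ (Fin 2) | ∃ p ∈ D, |z.1| ≤ M ∧ z.2 = p + z.1 • V p} :=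
      ⟨p, hp, hx, rfl⟩
    have hcov := h2 hmem
    simp only [Set.mem_iUnion] at hcov ⊢
    obtain ⟨i, s, hs, t, ht, hst⟩ := hcov
    simp only at hst
    obtain ⟨q, hq, r, hr⟩ := hB3 i s hs t ht x
    refine ⟨i, q, hq, r, ?_⟩
    rw [← hr]
    have h0 : p 0 + x * V p 0 = (c i + s • a i + t • b i) 0 + x * g i 0 := by
      have := congrArg (fun v : EuclideanSpace ℝ (Fin 2) => v 0) hst
      simpa using this
    have h1' : p 1 + x * V p 1 = (c i + s • a i + t • b i) 1 + x * g i 1 := by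
      have := congrArg (fun v : EuclideanSpace ℝ (Fin 2) => v 1) hst
      simpa using this
    rw [h0, h1']
    ext j
    fin_cases j
    · simp [Phi, wvec]
    · simp [Phi, wvec]
    · simp [Phi, wvec]; ring
  · have hterm : ∀ i, (μHE[2] (B i)).toReal = (1 + 2 * τ) ^ 2 * (h * (‖a i‖ ^ 2 * J h (g i))) := by
      intro i
      rw [hB4 i, ENNReal.toReal_ofReal]
      have := J_nonneg h (g i)
      positivity
    simp only [hterm]
    rw [← Finset.mul_sum, ← Finset.mul_sum]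
    have h5 : h * ∑ i, ‖a i‖ ^ 2 * J h (g i) ≤ K := by
      rw [hK]; gcongr
    have h6 : (1 + 2 * τ) ^ 2 ≤ 1 + 6 * τ := by nlinarith
    have h7 : (1 + 2 * τ) ^ 2 * (h * ∑ i, ‖a i‖ ^ 2 * J h (g i)) ≤ (1 + 6 * τ) * K := by
      apply mul_le_mul h6 h5 _ (by positivity)
      have : 0 ≤ ∑ i, ‖a i‖ ^ 2 * J h (g i) := Finset.sum_nonneg fun i _ => by
        have := J_nonneg h (g i)
        positivity
      positivity
    have h8 : K = h * I + ε / 2 := by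
      rw [hK]; field_simp
    linarith

end Crest.Agent.S0329
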