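import Crest.Statements.S0392
import Crest.Agent.R254.Block
import Crest.Agent.R254.Catalog
import Crest.Agent.R254.Consec
import Crest.Agent.R254.CoreFinal
import Crest.Agent.R254.DR
import Crest.Agent.R254.Det
import Crest.Agent.R254.FinNE
import Crest.Agent.R254.FinPack
import Crest.Agent.R254.Final
import Crest.Agent.R254.FtoGh
import Crest.Agent.R254.GeoBasic
import Crest.Agent.R254.GeoConn
import Crest.Agent.R254.GeoCov
import Crest.Agent.R254.GeoEmb
import Crest.Agent.R254.GeoSep
import Crest.Agent.R254.Glue
import Crest.Agent.R254.Law
import Crest.Agent.R254.LineLike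
import Crest.Agent.R254.Mean
import Crest.Agent.R254.Net
import Crest.Agent.R254.NodeAllC
import Crest.Agent.R254.NodeWF
import Crest.Agent.R254.ObsComp
import Crest.Agent.R254.PackCH
import Crest.Agent.R254.PackG
import Crest.Agent.R254.PackIter
import Crest.Agent.R254.PackV
import Crest.Agent.R254.Pieces
import Crest.Agent.R254.Proj
import Crest.Agent.R254.SeqGlue
import Crest.Agent.R254.Sim
import Crest.Agent.R254.SolComp
import Crest.Agent.R254.Strategy
import Crest.Agent.R254.VAR
import Crest.Agent.R254.Win

set_option autoImplicit false
open Crest.GeometryTopology
universe u v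
open Crest Crest.GeometryTopology

namespace Crest.Agent.S0392

/-- There is a universal constant `Λ` such that every infinite-dimensional real Banach space contains a compact subset that is doubling with constant at most `Λ` and admits no map into any finite-dimensional real normed space that is Lipschitz with a Lipschitz inverse on its image, whatever the two Lipschitz constants. Doubling is measured with closed balls centred at points of the subset. -/
theorem result :
    ∃ Λ : ℕ, ∀ (B : Type u) [NormedAddCommGroup B] [NormedSpace ℝ B] [CompleteSpace B],
      ¬ FiniteDimensional ℝ B →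
      ∃ K : Set B, IsCompact K ∧ DoublingConstLE K Λ ∧
        ∀ (Y : Type v) [NormedAddCommGroup Y] [NormedSpace ℝ Y] [FiniteDimensional ℝ Y]
          (f : K → Y) (c C : NNReal), ¬ (LipschitzWith C f ∧ AntilipschitzWith c f) := by
  have hcat : Crest.Agent.R254.CatalogStmt :=
    R254.catalog R254.solComp R254.consec (R254.block R254.consec R254.geoBasic)
      (R254.ftoGh R254.proj) R254.geoBasic R254.geoSep R254.geoEmb
      (R254.geoConn R254.geoBasic) (R254.geoCov R254.geoBasic) (R254.packV R254.lineLike)
      (R254.packG R254.lineLike R254.packIter)
  have hstr : Crest.Agent.R254.StrategyStmt :=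
    R254.strategy (R254.win R254.obsComp) R254.nodeWF R254.nodeAllC (R254.packCH R254.lineLike)
      R254.sim
  have hfin : Crest.Agent.R254.FinalStmt :=
    R254.final (R254.pieces R254.obsComp) R254.finNE (R254.finPack R254.lineLike R254.packIter)
      R254.sim
  exact R254.glue (R254.core hcat hstr hfin)
    (R254.dvor (R254.dr R254.det) R254.var R254.law R254.mean)
    (R254.packMap R254.packIter) R254.seqGlue R254.packDoubling

end Crest.Agent.S0392
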